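import Vale.Agent.P369.H255.Net

/-!
A function given by a fixed-point equation keeps domination.  No complex analysis is used:
the best constant `R` satisfies `R ≤ (1 + R) / 2`.
-/

namespace Vale.Agent.P369.H255

open scoped BigOperators Matrix
open MeasureTheory

noncomputable section

/-- The fixed-point data. -/
structure GG (γ : ℝ → ℝ) : Prop where
  cont : ContinuousOn γ (Set.Ioc 0 1)
  one_le : ∀ x ∈ Set.Ioc (0 : ℝ) 1, 1 ≤ γ x
  fp : ∀ x ∈ Set.Ioc (0 : ℝ) 1,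
    γ x = (1 / 2) * ∫ m in (0 : ℝ)..1, (1 + (γ (m * x + (1 - m)))⁻¹) / (m * x + (1 - m))

/-- The homogeneous function `x γ(x / y)`. -/
def En (γ : ℝ → ℝ) (x y : ℝ) : ℝ := x * γ (x / y)

/-- Domination by `En γ` up to the constant `R`. -/
def Claim (γ : ℝ → ℝ) (R : ℝ) : Prop :=
  ∀ {I J : Type} [Fintype I] [Fintype J] (T : Matrix J I ℂ) (f k : J → ℝ) (F K : I → ℝ),
    (∀ j, 0 < f j ∧ f j ≤ k j) → (∀ i, 0 < F i ∧ F i ≤ K i) → Dom T f F → Dom T k K →
    Dom T (fun j => En γ (f j) (k j)) (fun i => R * En γ (F i) (K i))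

theorem mix_pos {x y m : ℝ} (hx : 0 < x) (hxy : x ≤ y) (hm : m ∈ Set.Icc (0 : ℝ) 1) :
    0 < m * x + (1 - m) * y := by
  have h1 : x ≤ m * x + (1 - m) * y := by nlinarith [hm.1, hm.2]
  linarith

theorem mix_le {x y m : ℝ} (hxy : x ≤ y) (hm : m ∈ Set.Icc (0 : ℝ) 1) :
    m * x + (1 - m) * y ≤ y := by nlinarith [hm.1, hm.2]

theorem ratio_mem {x y : ℝ} (hx : 0 < x) (hxy : x ≤ y) : x / y ∈ Set.Ioc (0 : ℝ) 1 :=
  ⟨by have := hx.trans_le hxy; positivity, (div_le_one (hx.trans_le hxy)).2 hxy⟩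

theorem GG.En_pos {γ : ℝ → ℝ} (hγ : GG γ) {x y : ℝ} (hx : 0 < x) (hxy : x ≤ y) :
    0 < En γ x y := by
  have := hγ.one_le _ (ratio_mem hx hxy)
  unfold En
  nlinarith

theorem GG.le_En {γ : ℝ → ℝ} (hγ : GG γ) {x y : ℝ} (hx : 0 < x) (hxy : x ≤ y) :
    x ≤ En γ x y := by
  have := hγ.one_le _ (ratio_mem hx hxy)
  unfold En
  nlinarith

/-- `m ↦ γ((m x + (1-m) y) / y)` is continuous. -/
theorem GG.cont_mix {γ : ℝ → ℝ} (hγ : GG γ) {x y : ℝ} (hx : 0 < x) (hxy : x ≤ y) :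
    ContinuousOn (fun m : ℝ => En γ (m * x + (1 - m) * y) y) (Set.Icc 0 1) := by
  unfold En
  refine ContinuousOn.mul (by fun_prop) (hγ.cont.comp (by fun_prop) ?_)
  intro m hm
  exact ratio_mem (mix_pos hx hxy hm) (mix_le hxy hm)

/-- The first part of the integrand. -/
def Am (x y m : ℝ) : ℝ := x * y / (m * x + (1 - m) * y)

/-- The second part of the integrand. -/
def Bm (γ : ℝ → ℝ) (x y m : ℝ) : ℝ := x * y / En γ (m * x + (1 - m) * y) y

theorem Am_cont {x y : ℝ} (hx : 0 < x) (hxy : x ≤ y) :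
    ContinuousOn (Am x y) (Set.Icc 0 1) := by
  unfold Am
  refine ContinuousOn.div (by fun_prop) (by fun_prop) fun m hm => ?_
  exact (mix_pos hx hxy hm).ne'

theorem Bm_cont {γ : ℝ → ℝ} (hγ : GG γ) {x y : ℝ} (hx : 0 < x) (hxy : x ≤ y) :
    ContinuousOn (Bm γ x y) (Set.Icc 0 1) := by
  unfold Bm
  refine ContinuousOn.div (by fun_prop) (hγ.cont_mix hx hxy) fun m hm => ?_
  exact (hγ.En_pos (mix_pos hx hxy hm) (mix_le hxy hm)).ne'

theorem Am_int {x y : ℝ} (hx : 0 < x) (hxy : x ≤ y) :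
    IntervalIntegrable (Am x y) volume 0 1 :=
  ContinuousOn.intervalIntegrable_of_Icc zero_le_one (Am_cont hx hxy)

theorem Bm_int {γ : ℝ → ℝ} (hγ : GG γ) {x y : ℝ} (hx : 0 < x) (hxy : x ≤ y) :
    IntervalIntegrable (Bm γ x y) volume 0 1 :=
  ContinuousOn.intervalIntegrable_of_Icc zero_le_one (Bm_cont hγ hx hxy)

theorem Bm_le_Am {γ : ℝ → ℝ} (hγ : GG γ) {x y m : ℝ} (hx : 0 < x) (hxy : x ≤ y)
    (hm : m ∈ Set.Icc (0 : ℝ) 1) : Bm γ x y m ≤ Am x y m := by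
  have hy := hx.trans_le hxy
  unfold Am Bm
  exact div_le_div_of_nonneg_left (by positivity) (mix_pos hx hxy hm)
    (hγ.le_En (mix_pos hx hxy hm) (mix_le hxy hm))

theorem Am_pos {x y m : ℝ} (hx : 0 < x) (hxy : x ≤ y)
    (hm : m ∈ Set.Icc (0 : ℝ) 1) : 0 < Am x y m := by
  have hy := hx.trans_le hxy
  have := mix_pos hx hxy hm
  unfold Am
  positivity

theorem Bm_pos {γ : ℝ → ℝ} (hγ : GG γ) {x y m : ℝ} (hx : 0 < x) (hxy : x ≤ y)
    (hm : m ∈ Set.Icc (0 : ℝ) 1) : 0 < Bm γ x y m := by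
  have hy := hx.trans_le hxy
  have := hγ.En_pos (mix_pos hx hxy hm) (mix_le hxy hm)
  unfold Bm
  positivity

/-- The fixed-point equation in homogeneous form. -/
theorem En_eq {γ : ℝ → ℝ} (hγ : GG γ) {x y : ℝ} (hx : 0 < x) (hxy : x ≤ y) :
    En γ x y = ∫ m in (0 : ℝ)..1, (1 / 2) * (Am x y m + Bm γ x y m) := by
  have hy := hx.trans_le hxy
  rw [En, hγ.fp _ (ratio_mem hx hxy), ← mul_assoc, ← intervalIntegral.integral_const_mul]
  refine intervalIntegral.integral_congr fun m hm => ?_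
  rw [Set.uIcc_of_le zero_le_one] at hm
  have hp := mix_pos hx hxy hm
  have e1 : m * (x / y) + (1 - m) = (m * x + (1 - m) * y) / y := by
    field_simp
  simp only [Am, Bm, En]
  rw [e1]
  have hg := hγ.one_le _ (ratio_mem hp (mix_le hxy hm))
  have hg' : 0 < γ ((m * x + (1 - m) * y) / y) := by linarith
  field_simp

theorem dom_Am {I J : Type} [Fintype I] [Fintype J] {T : Matrix J I ℂ} {f k : J → ℝ}
    {F K : I → ℝ} (hf : ∀ j, 0 < f j ∧ f j ≤ k j) (hF : ∀ i, 0 < F i ∧ F i ≤ K i)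
    (h1 : Dom T f F) (h2 : Dom T k K) {m : ℝ} (hm : m ∈ Set.Icc (0 : ℝ) 1) :
    Dom T (fun j => Am (f j) (k j) m) (fun i => Am (F i) (K i) m) := by
  have hk : ∀ j, 0 < k j := fun j => (hf j).1.trans_le (hf j).2
  have hK : ∀ j, 0 < K j := fun j => (hF j).1.trans_le (hF j).2
  have h3 := ((h2.dual hk hK).smul hm.1).add
    ((h1.dual (fun j => (hf j).1) (fun i => (hF i).1)).smul (sub_nonneg.2 hm.2))
  refine Dom.of_dual ?_ (fun j => Am_pos (hf j).1 (hf j).2 hm)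
    (fun i => Am_pos (hF i).1 (hF i).2 hm)
  convert h3 using 2 with i j
  · have := hF i; have := hK i; have := mix_pos (hF i).1 (hF i).2 hm
    have := (hF i).1
    unfold Am
    field_simp
  · have := hf j; have := hk j; have := mix_pos (hf j).1 (hf j).2 hm
    have := (hf j).1
    unfold Am
    field_simp

theorem dom_Bm {γ : ℝ → ℝ} (hγ : GG γ) {R : ℝ} (hR : 0 < R) (hC : Claim γ R)
    {I J : Type} [Fintype I] [Fintype J] {T : Matrix J I ℂ} {f k : J → ℝ}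
    {F K : I → ℝ} (hf : ∀ j, 0 < f j ∧ f j ≤ k j) (hF : ∀ i, 0 < F i ∧ F i ≤ K i)
    (h1 : Dom T f F) (h2 : Dom T k K) {m : ℝ} (hm : m ∈ Set.Icc (0 : ℝ) 1) :
    Dom T (fun j => Bm γ (f j) (k j) m) (fun i => R * Bm γ (F i) (K i) m) := by
  have hk : ∀ j, 0 < k j := fun j => (hf j).1.trans_le (hf j).2
  have hK : ∀ j, 0 < K j := fun j => (hF j).1.trans_le (hF j).2
  have h3 := ((h2.dual hk hK).smul hm.1).add
    ((h1.dual (fun j => (hf j).1) (fun i => (hF i).1)).smul (sub_nonneg.2 hm.2))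
  have h4 := h1.dual (fun j => (hf j).1) (fun i => (hF i).1)
  have inv_pair : ∀ x y : ℝ, 0 < x → x ≤ y →
      0 < m * y⁻¹ + (1 - m) * x⁻¹ ∧ m * y⁻¹ + (1 - m) * x⁻¹ ≤ x⁻¹ := by
    intro x y hx hxy
    have hy := hx.trans_le hxy
    have hxy' : y⁻¹ ≤ x⁻¹ := inv_anti₀ hx hxy
    exact ⟨mix_pos (inv_pos.2 hy) hxy' hm, mix_le hxy' hm⟩
  have h5 := hC Tᴴ _ _ _ _ (fun i => inv_pair (F i) (K i) (hF i).1 (hF i).2)
    (fun j => inv_pair (f j) (k j) (hf j).1 (hf j).2) h3 h4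
  have key : ∀ x y : ℝ, 0 < x → x ≤ y →
      En γ (m * y⁻¹ + (1 - m) * x⁻¹) x⁻¹ = (Bm γ x y m)⁻¹ := by
    intro x y hx hxy
    have hy := hx.trans_le hxy
    have hp := mix_pos hx hxy hm
    have e1 : (m * y⁻¹ + (1 - m) * x⁻¹) / x⁻¹ = (m * x + (1 - m) * y) / y := by
      field_simp
    have hg := hγ.one_le _ (ratio_mem hp (mix_le hxy hm))
    have hg' : 0 < γ ((m * x + (1 - m) * y) / y) := by linarith
    unfold Bm En
    rw [e1]
    field_simp
  have h6 := h5.smul (inv_nonneg.2 hR.le)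
  refine Dom.of_dual ?_ (fun j => Bm_pos hγ (hf j).1 (hf j).2 hm)
    (fun i => mul_pos hR (Bm_pos hγ (hF i).1 (hF i).2 hm))
  convert h6 using 2 with i j
  · rw [key _ _ (hF i).1 (hF i).2, mul_inv]
  · rw [key _ _ (hf j).1 (hf j).2, ← mul_assoc, inv_mul_cancel₀ hR.ne', one_mul]

theorem claim_two {γ : ℝ → ℝ} (hγ : GG γ) : Claim γ 2 := by
  intro I J _ _ T f k F K hf hF h1 h2
  have h3 := Dom.integral (T := T) (a := fun m j => Am (f j) (k j) m)
    (A := fun m i => Am (F i) (K i) m) (fun m hm => dom_Am hf hF h1 h2 hm)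
    (fun j => Am_int (hf j).1 (hf j).2) (fun i => Am_int (hF i).1 (hF i).2)
  refine h3.mono (fun j => ?_) (fun i => ?_)
  · rw [En_eq hγ (hf j).1 (hf j).2]
    refine intervalIntegral.integral_mono_on zero_le_one ?_ (Am_int (hf j).1 (hf j).2) ?_
    · exact ((Am_int (hf j).1 (hf j).2).add (Bm_int hγ (hf j).1 (hf j).2)).const_mul _
    · intro m hm
      have := Bm_le_Am hγ (hf j).1 (hf j).2 hm
      linarith
  · rw [En_eq hγ (hF i).1 (hF i).2, ← intervalIntegral.integral_const_mul]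
    refine intervalIntegral.integral_mono_on zero_le_one (Am_int (hF i).1 (hF i).2) ?_ ?_
    · exact (((Am_int (hF i).1 (hF i).2).add (Bm_int hγ (hF i).1 (hF i).2)).const_mul _).const_mul _
    · intro m hm
      have := Bm_pos hγ (hF i).1 (hF i).2 hm
      linarith

theorem claim_step {γ : ℝ → ℝ} (hγ : GG γ) {R : ℝ} (hR : 1 ≤ R) (hC : Claim γ R) :
    Claim γ ((1 + R) / 2) := by
  intro I J _ _ T f k F K hf hF h1 h2
  have hR0 : 0 < R := by linarith
  have h3 := Dom.integral (T := T)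
    (a := fun m j => (1 / 2) * (Am (f j) (k j) m + Bm γ (f j) (k j) m))
    (A := fun m i => (1 / 2) * (Am (F i) (K i) m + R * Bm γ (F i) (K i) m))
    (fun m hm => ((dom_Am hf hF h1 h2 hm).add (dom_Bm hγ hR0 hC hf hF h1 h2 hm)).smul
      (by norm_num))
    (fun j => ((Am_int (hf j).1 (hf j).2).add (Bm_int hγ (hf j).1 (hf j).2)).const_mul _)
    (fun i => ((Am_int (hF i).1 (hF i).2).add
      ((Bm_int hγ (hF i).1 (hF i).2).const_mul R)).const_mul _)
  refine h3.mono (fun j => ?_) (fun i => ?_)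
  · rw [En_eq hγ (hf j).1 (hf j).2]
  · rw [En_eq hγ (hF i).1 (hF i).2, ← intervalIntegral.integral_const_mul]
    refine intervalIntegral.integral_mono_on zero_le_one ?_ ?_ ?_
    · exact ((Am_int (hF i).1 (hF i).2).add
        ((Bm_int hγ (hF i).1 (hF i).2).const_mul R)).const_mul _
    · exact (((Am_int (hF i).1 (hF i).2).add (Bm_int hγ (hF i).1 (hF i).2)).const_mul _).const_mul _
    · intro m hm
      have := Bm_le_Am hγ (hF i).1 (hF i).2 hm
      show (1 / 2) * (Am (F i) (K i) m + R * Bm γ (F i) (K i) m)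
        ≤ (1 + R) / 2 * ((1 / 2) * (Am (F i) (K i) m + Bm γ (F i) (K i) m))
      nlinarith

theorem claim_pow {γ : ℝ → ℝ} (hγ : GG γ) (n : ℕ) : Claim γ (1 + (1 / 2) ^ n) := by
  induction n with
  | zero =>
    have h : Claim γ 2 := @claim_two γ hγ
    have e : (1 + (1 / 2 : ℝ) ^ 0) = 2 := by norm_num
    rw [e]
    exact @h
  | succ n ih =>
    have h : Claim γ ((1 + (1 + (1 / 2 : ℝ) ^ n)) / 2) :=
      @claim_step γ hγ (1 + (1 / 2) ^ n) (by simp) @ih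
    have e : (1 + (1 + (1 / 2 : ℝ) ^ n)) / 2 = 1 + (1 / 2) ^ (n + 1) := by ring
    rw [e] at h
    exact @h

/-- Domination passes to `En γ`. -/
theorem dom_En {γ : ℝ → ℝ} (hγ : GG γ) {I J : Type} [Fintype I] [Fintype J]
    {T : Matrix J I ℂ} {f k : J → ℝ} {F K : I → ℝ} (hf : ∀ j, 0 < f j ∧ f j ≤ k j)
    (hF : ∀ i, 0 < F i ∧ F i ≤ K i) (h1 : Dom T f F) (h2 : Dom T k K) :
    Dom T (fun j => En γ (f j) (k j)) (fun i => En γ (F i) (K i)) := by
  intro g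
  have h : ∀ n : ℕ, ∑ j, En γ (f j) (k j) * ‖(T *ᵥ g) j‖ ^ 2
      ≤ (1 + (1 / 2) ^ n) * ∑ i, En γ (F i) (K i) * ‖g i‖ ^ 2 := by
    intro n
    have := claim_pow hγ n T f k F K hf hF h1 h2 g
    simpa only [Finset.mul_sum, mul_assoc] using this
  have lim : Filter.Tendsto (fun n : ℕ => (1 + (1 / 2 : ℝ) ^ n)
      * ∑ i, En γ (F i) (K i) * ‖g i‖ ^ 2) Filter.atTop
      (nhds ((1 + 0) * ∑ i, En γ (F i) (K i) * ‖g i‖ ^ 2)) := by
    refine Filter.Tendsto.mul_const _ (Filter.Tendsto.const_add _ ?_)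
    exact tendsto_pow_atTop_nhds_zero_of_lt_one (by norm_num) (by norm_num)
  have := ge_of_tendsto' lim h
  simpa using this

end

end Vale.Agent.P369.H255
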