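import Vale.Agent.P369.H255.Fix

/-!
The middle branch of the bridge: a series connection of elements `z` and `En γ z y`, with `z`
running over the segment between two weights.
-/

namespace Vale.Agent.P369.H255

open scoped BigOperators Matrix
open MeasureTheory

noncomputable section

/-- The resistance density. -/
def rho (γ : ℝ → ℝ) (z y : ℝ) : ℝ := z⁻¹ + (En γ z y)⁻¹

/-- The conductance of the rod. -/
def rod (γ : ℝ → ℝ) (x₁ x₂ y : ℝ) : ℝ :=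
  (∫ m in (0 : ℝ)..1, rho γ (m * x₁ + (1 - m) * x₂) y)⁻¹

theorem mix_pos' {x₁ x₂ m : ℝ} (h1 : 0 < x₁) (h2 : 0 < x₂) (hm : m ∈ Set.Icc (0 : ℝ) 1) :
    0 < m * x₁ + (1 - m) * x₂ := by
  rcases eq_or_lt_of_le hm.1 with h | h
  · rw [← h]; simpa using h2
  · have : 0 ≤ (1 - m) * x₂ := mul_nonneg (sub_nonneg.2 hm.2) h2.le
    have := mul_pos h h1
    linarith

theorem mix_le' {x₁ x₂ y m : ℝ} (h1 : x₁ ≤ y) (h2 : x₂ ≤ y) (hm : m ∈ Set.Icc (0 : ℝ) 1) :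
    m * x₁ + (1 - m) * x₂ ≤ y := by
  have e1 := mul_le_mul_of_nonneg_left h1 hm.1
  have e2 := mul_le_mul_of_nonneg_left h2 (sub_nonneg.2 hm.2)
  linarith

theorem rho_pos {γ : ℝ → ℝ} (hγ : GG γ) {z y : ℝ} (hz : 0 < z) (hzy : z ≤ y) :
    0 < rho γ z y := by
  have := hγ.En_pos hz hzy
  unfold rho
  positivity

theorem rho_cont {γ : ℝ → ℝ} (hγ : GG γ) {x₁ x₂ y : ℝ} (h1 : 0 < x₁) (h1y : x₁ ≤ y)
    (h2 : 0 < x₂) (h2y : x₂ ≤ y) :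
    ContinuousOn (fun m : ℝ => rho γ (m * x₁ + (1 - m) * x₂) y) (Set.Icc 0 1) := by
  unfold rho
  refine ContinuousOn.add (ContinuousOn.inv₀ (by fun_prop) fun _ hm => (mix_pos' h1 h2 hm).ne')
    (ContinuousOn.inv₀ ?_ fun _ hm =>
      (hγ.En_pos (mix_pos' h1 h2 hm) (mix_le' h1y h2y hm)).ne')
  unfold En
  refine ContinuousOn.mul (by fun_prop) (hγ.cont.comp (by fun_prop) ?_)
  intro m hm
  exact ratio_mem (mix_pos' h1 h2 hm) (mix_le' h1y h2y hm)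

theorem rho_int {γ : ℝ → ℝ} (hγ : GG γ) {x₁ x₂ y : ℝ} (h1 : 0 < x₁) (h1y : x₁ ≤ y)
    (h2 : 0 < x₂) (h2y : x₂ ≤ y) :
    IntervalIntegrable (fun m : ℝ => rho γ (m * x₁ + (1 - m) * x₂) y) volume 0 1 :=
  ContinuousOn.intervalIntegrable_of_Icc zero_le_one (rho_cont hγ h1 h1y h2 h2y)

theorem rodInv_pos {γ : ℝ → ℝ} (hγ : GG γ) {x₁ x₂ y : ℝ} (h1 : 0 < x₁) (h1y : x₁ ≤ y)
    (h2 : 0 < x₂) (h2y : x₂ ≤ y) :
    0 < ∫ m in (0 : ℝ)..1, rho γ (m * x₁ + (1 - m) * x₂) y :=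
  intervalIntegral.intervalIntegral_pos_of_pos_on (rho_int hγ h1 h1y h2 h2y)
    (fun m hm => rho_pos hγ (mix_pos' h1 h2 ⟨hm.1.le, hm.2.le⟩)
      (mix_le' h1y h2y ⟨hm.1.le, hm.2.le⟩)) one_pos

theorem rod_pos {γ : ℝ → ℝ} (hγ : GG γ) {x₁ x₂ y : ℝ} (h1 : 0 < x₁) (h1y : x₁ ≤ y)
    (h2 : 0 < x₂) (h2y : x₂ ≤ y) : 0 < rod γ x₁ x₂ y :=
  inv_pos.2 (rodInv_pos hγ h1 h1y h2 h2y)

theorem rod_smul {γ : ℝ → ℝ} {x₁ x₂ y c : ℝ} (hc : 0 < c) :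
    rod γ (c * x₁) (c * x₂) (c * y) = c * rod γ x₁ x₂ y := by
  unfold rod
  have e : ∀ m : ℝ, rho γ (m * (c * x₁) + (1 - m) * (c * x₂)) (c * y)
      = c⁻¹ * rho γ (m * x₁ + (1 - m) * x₂) y := by
    intro m
    have e1 : m * (c * x₁) + (1 - m) * (c * x₂) = c * (m * x₁ + (1 - m) * x₂) := by ring
    unfold rho En
    rw [e1, mul_div_mul_left _ _ hc.ne', mul_inv, mul_assoc, mul_inv, mul_add]
  simp only [e, intervalIntegral.integral_const_mul, mul_inv, inv_inv]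

/-- Domination of the rods. -/
theorem dom_rod {γ : ℝ → ℝ} (hγ : GG γ) {I J : Type} [Fintype I] [Fintype J]
    {T : Matrix J I ℂ} {f₁ f₂ k : J → ℝ} {F₁ F₂ K : I → ℝ}
    (hf₁ : ∀ j, 0 < f₁ j ∧ f₁ j ≤ k j) (hf₂ : ∀ j, 0 < f₂ j ∧ f₂ j ≤ k j)
    (hF₁ : ∀ i, 0 < F₁ i ∧ F₁ i ≤ K i) (hF₂ : ∀ i, 0 < F₂ i ∧ F₂ i ≤ K i)
    (h1 : Dom T f₁ F₁) (h2 : Dom T f₂ F₂) (h3 : Dom T k K) :
    Dom T (fun j => rod γ (f₁ j) (f₂ j) (k j)) (fun i => rod γ (F₁ i) (F₂ i) (K i)) := by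
  have hs := Dom.seriesInt (T := T)
    (a := fun m j => (rho γ (m * f₁ j + (1 - m) * f₂ j) (k j))⁻¹)
    (A := fun m i => (rho γ (m * F₁ i + (1 - m) * F₂ i) (K i))⁻¹)
    (fun m hm => ?_) (fun m hm j => ?_) (fun m hm i => ?_) (fun j => ?_) (fun i => ?_)
  · simpa only [inv_inv, rod] using hs
  · have hm' := sub_nonneg.2 hm.2
    have e1 := (h1.smul hm.1).add (h2.smul hm')
    have p1 : ∀ j, 0 < m * f₁ j + (1 - m) * f₂ j ∧ m * f₁ j + (1 - m) * f₂ j ≤ k j :=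
      fun j => ⟨mix_pos' (hf₁ j).1 (hf₂ j).1 hm, mix_le' (hf₁ j).2 (hf₂ j).2 hm⟩
    have p2 : ∀ i, 0 < m * F₁ i + (1 - m) * F₂ i ∧ m * F₁ i + (1 - m) * F₂ i ≤ K i :=
      fun i => ⟨mix_pos' (hF₁ i).1 (hF₂ i).1 hm, mix_le' (hF₁ i).2 (hF₂ i).2 hm⟩
    have e2 := dom_En hγ p1 p2 e1 h3
    exact e1.series e2 (fun j => (p1 j).1) (fun j => hγ.En_pos (p1 j).1 (p1 j).2)
      (fun i => (p2 i).1) (fun i => hγ.En_pos (p2 i).1 (p2 i).2)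
  · exact inv_pos.2 (rho_pos hγ (mix_pos' (hf₁ j).1 (hf₂ j).1 hm)
      (mix_le' (hf₁ j).2 (hf₂ j).2 hm))
  · exact inv_pos.2 (rho_pos hγ (mix_pos' (hF₁ i).1 (hF₂ i).1 hm)
      (mix_le' (hF₁ i).2 (hF₂ i).2 hm))
  · simpa only [inv_inv] using rho_int hγ (hf₁ j).1 (hf₁ j).2 (hf₂ j).1 (hf₂ j).2
  · simpa only [inv_inv] using rho_int hγ (hF₁ i).1 (hF₁ i).2 (hF₂ i).1 (hF₂ i).2

end

end Vale.Agent.P369.H255
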