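import Vale.Agent.P369.H255.Scalar
import Vale.Agent.P369.H255.Rod

/-!
The function `γ(x) = (q-1)/(1-x)`, `x = F`, satisfies the fixed-point equation of `Fix.lean`;
the value of the rod; the function `G(w,b)` as the minimum over one parameter.
-/

namespace Vale.Agent.P369.H255

open Real Filter Topology MeasureTheory

noncomputable section

/-- `(q - 1) / (1 - F)` as a function of `F`. -/
def gam (x : ℝ) : ℝ := if x = 1 then 1 else (Qx x - 1) / (1 - x)

theorem gam_one : gam 1 = 1 := by simp [gam]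

theorem gam_of_ne {x : ℝ} (hx : x ≠ 1) : gam x = (Qx x - 1) / (1 - x) := by simp [gam, hx]

theorem one_le_gam {x : ℝ} (hx : x ∈ Set.Ioc (0 : ℝ) 1) : 1 ≤ gam x := by
  rcases eq_or_lt_of_le hx.2 with h | h
  · rw [h, gam_one]
  · rw [gam_of_ne h.ne, le_div_iff₀ (by linarith)]
    have := qf_add_Ff (psi_pos ⟨hx.1, h⟩)
    rw [Ff_psi hx] at this
    rw [Qx]
    linarith

theorem gam_le {x : ℝ} (hx : x ∈ Set.Ioc (0 : ℝ) 1) : gam x ≤ x⁻¹ := by
  rcases eq_or_lt_of_le hx.2 with h | h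
  · rw [h, gam_one]; simp
  · have h1 := qf_mul_Ff_le (psi_mem hx)
    rw [Ff_psi hx] at h1
    have hx0 := hx.1
    rw [gam_of_ne h.ne, div_le_iff₀ (by linarith), Qx, inv_mul_eq_div, le_div_iff₀ hx0]
    linarith

theorem gam_cont : ContinuousOn gam (Set.Ioc 0 1) := by
  intro x hx
  rcases eq_or_lt_of_le hx.2 with h | h
  · rw [h, ContinuousWithinAt, gam_one]
    have h1 : Tendsto (fun y : ℝ => y⁻¹) (𝓝[Set.Ioc 0 1] 1) (𝓝 1) := by
      have : ContinuousAt (fun y : ℝ => y⁻¹) 1 := continuousAt_inv₀ one_ne_zero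
      have := this.tendsto.mono_left (nhdsWithin_le_nhds (s := Set.Ioc (0 : ℝ) 1))
      simpa using this
    refine tendsto_of_tendsto_of_tendsto_of_le_of_le' tendsto_const_nhds h1 ?_ ?_
    · filter_upwards [self_mem_nhdsWithin] with y hy using one_le_gam hy
    · filter_upwards [self_mem_nhdsWithin] with y hy using gam_le hy
  · have h1 : ContinuousAt (fun y => (Qx y - 1) / (1 - y)) x := by
      have hQ : ContinuousAt Qx x := (hasDerivAt_Qx ⟨hx.1, h⟩).continuousAt
      exact (hQ.sub continuousAt_const).div (by fun_prop) (by linarith)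
    have h2 : gam =ᶠ[𝓝 x] fun y => (Qx y - 1) / (1 - y) := by
      filter_upwards [isOpen_ne.mem_nhds h.ne] with y hy
      exact gam_of_ne hy
    exact (h1.congr_of_eventuallyEq h2).continuousWithinAt

/-- The resistance density with unit reference weight. -/
theorem rho_one (z : ℝ) : rho gam z 1 = (1 + (gam z)⁻¹) / z := by
  rw [rho, En, div_one, mul_inv, add_div, div_eq_mul_inv, div_eq_mul_inv, one_mul,
    mul_comm z⁻¹]

theorem Qx_deriv {x : ℝ} (hx : x ∈ Set.Ioo (0 : ℝ) 1) :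
    HasDerivAt Qx (-(1 / 2) * rho gam x 1) x := by
  refine (hasDerivAt_Qx hx).congr_deriv ?_
  have hq := Qx_gt hx
  have h1 : Qx x - 1 ≠ 0 := by linarith
  have h2 : 1 - x ≠ 0 := by have := hx.2; linarith
  have h3 := hx.1.ne'
  rw [rho_one, gam_of_ne hx.2.ne]
  field_simp
  ring

theorem rho_contOn : ContinuousOn (fun z => rho gam z 1) (Set.Ioc 0 1) := by
  simp only [rho_one]
  refine ContinuousOn.div (continuousOn_const.add (gam_cont.inv₀ fun x hx => ?_))
    continuousOn_id fun x hx => hx.1.ne'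
  have := one_le_gam hx
  linarith

/-- The fundamental theorem of calculus for `Qx`. -/
theorem integral_rho {x y : ℝ} (hx : 0 < x) (hxy : x ≤ y) (hy : y ≤ 1) :
    ∫ t in x..y, rho gam t 1 = 2 * (Qx x - Qx y) := by
  have hsub : Set.Icc x y ⊆ Set.Ioc 0 1 := fun t ht => ⟨hx.trans_le ht.1, ht.2.trans hy⟩
  have h := intervalIntegral.integral_eq_sub_of_hasDerivAt_of_le (a := x) (b := y)
    (f := fun t => -2 * Qx t) (f' := fun t => rho gam t 1) hxy
    ((Qx_cont.mono hsub).const_smul (-2 : ℝ) |>.congr fun t _ => by simp) ?_ ?_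
  · rw [h]; ring
  · intro t ht
    have ht' : t ∈ Set.Ioo (0 : ℝ) 1 := ⟨hx.trans ht.1, ht.2.trans_le hy⟩
    refine ((Qx_deriv ht').const_mul (-2)).congr_deriv ?_
    ring
  · exact ContinuousOn.intervalIntegrable_of_Icc hxy (rho_contOn.mono hsub)

theorem integral_rho' {x y : ℝ} (hx : 0 < x) (hx1 : x ≤ 1) (hy : 0 < y) (hy1 : y ≤ 1) :
    ∫ t in x..y, rho gam t 1 = 2 * (Qx x - Qx y) := by
  rcases le_total x y with h | h
  · exact integral_rho hx h hy1
  · rw [intervalIntegral.integral_symm, integral_rho hy h hx1]; ring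

/-- The inverse conductance of the rod. -/
theorem rodInv_eq {x y : ℝ} (hx : 0 < x) (hx1 : x ≤ 1) (hy : 0 < y) (hy1 : y ≤ 1)
    (hne : x ≠ y) :
    ∫ m in (0 : ℝ)..1, rho gam (m * x + (1 - m) * y) 1 = 2 * (Qx y - Qx x) / (x - y) := by
  have e : ∀ m : ℝ, m * x + (1 - m) * y = (x - y) * m + y := by intro m; ring
  have hc : x - y ≠ 0 := sub_ne_zero.2 hne
  simp only [e]
  rw [intervalIntegral.integral_comp_mul_add (fun t => rho gam t 1) hc y]
  have e1 : (x - y) * 0 + y = y := by ring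
  have e2 : (x - y) * 1 + y = x := by ring
  rw [e1, e2, integral_rho' hy hy1 hx hx1, smul_eq_mul, inv_mul_eq_div]

theorem gg_gam : GG gam where
  cont := gam_cont
  one_le := fun _ hx => one_le_gam hx
  fp := by
    intro x hx
    rcases eq_or_lt_of_le hx.2 with h | h
    · subst h
      simp [gam_one]
      norm_num
    · have h1 := rodInv_eq hx.1 hx.2 one_pos le_rfl h.ne
      have e : ∀ m : ℝ, (1 + (gam (m * x + (1 - m)))⁻¹) / (m * x + (1 - m))
          = rho gam (m * x + (1 - m) * 1) 1 := by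
        intro m
        rw [rho_one, mul_one]
      simp only [e]
      rw [h1, gam_of_ne h.ne, Qx_one]
      have h2 : x - 1 ≠ 0 := by linarith
      have h3 : 1 - x ≠ 0 := by linarith
      field_simp
      ring

/-- The middle conductance `c(w, b)`. -/
def cf (w b : ℝ) : ℝ := rod gam (Ff w) (Ff b) 1

theorem cf_pos (w b : ℝ) : 0 < cf w b :=
  rod_pos gg_gam (Ff_pos w) (Ff_le_one w) (Ff_pos b) (Ff_le_one b)

theorem cf_eq {w b : ℝ} (h : Ff w ≠ Ff b) : 2 * cf w b * (qf b - qf w) = Ff w - Ff b := by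
  have hc : Ff w - Ff b ≠ 0 := sub_ne_zero.2 h
  have h1 := rodInv_eq (Ff_pos w) (Ff_le_one w) (Ff_pos b) (Ff_le_one b) h
  rw [Qx_Ff, Qx_Ff] at h1
  have h2 := rodInv_pos gg_gam (Ff_pos w) (Ff_le_one w) (Ff_pos b) (Ff_le_one b)
  rw [cf, rod, h1]
  rw [h1] at h2
  have h3 : qf b - qf w ≠ 0 := by
    intro h0
    rw [h0] at h2
    simp at h2
  field_simp

/-- `G(w, b)`. -/
def Gf (w b : ℝ) : ℝ :=
  (qf w + qf b) / 2 - (w + b) ^ 2 / (8 * (qf w + qf b + 2 * cf w b))

theorem qf_pos (w : ℝ) : 0 < qf w := by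
  have := p0_add_p1 w
  have := p0_pos w
  have := p1_pos w
  linarith

/-- The defining property of `G`. -/
theorem Gf_mul (w b : ℝ) : Gf w b * (b - w) = b * p0 w - w * p0 b := by
  have hS : 0 < qf w + qf b + 2 * cf w b := by
    have := qf_pos w; have := qf_pos b; have := cf_pos w b; linarith
  have hp : ∀ x, p0 x = qf x - x / 2 := fun x => by rw [qf]; ring
  rcases eq_or_ne (Ff w) (Ff b) with h | h
  · have habs : |w| = |b| := by
      rw [← Ff_abs w, ← Ff_abs b] at h
      exact strictAntiOn_Ff.injOn (Set.mem_Ici.2 (abs_nonneg w)) (Set.mem_Ici.2 (abs_nonneg b)) h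
    rcases abs_eq_abs.1 habs with e | e
    · rw [e]; ring
    · rw [e, Gf, hp, hp, qf_neg]
      have : -b + b = 0 := by ring
      rw [this]
      ring
  · have h1 := cf_eq h
    have hw := qf_sq_sub w
    have hb := qf_sq_sub b
    have h3 : qf b - qf w ≠ 0 := by
      intro h0
      rw [h0, mul_zero] at h1
      exact h (by linarith)
    have key : 4 * (qf w + qf b + 2 * cf w b) * (qf b - qf w) = (b - w) * (b + w) := by
      linear_combination 4 * h1 + 4 * hb - 4 * hw
    have e : (w + b) ^ 2 / (8 * (qf w + qf b + 2 * cf w b)) * (b - w)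
        = (w + b) * (qf b - qf w) / 2 := by
      rw [div_mul_eq_mul_div, div_eq_div_iff (by positivity) two_ne_zero]
      linear_combination (-2 * (w + b)) * key
    rw [Gf, sub_mul, e, hp, hp]
    ring

/-- The minimising parameter. -/
def sf (w b : ℝ) : ℝ := -(w + b) / (4 * (qf w + qf b + 2 * cf w b))

theorem Gf_eq (w b : ℝ) :
    Gf w b = (p0 w + p0 b) * (1 / 2 - sf w b) ^ 2 + (p1 w + p1 b) * (1 / 2 + sf w b) ^ 2
      + 4 * cf w b * sf w b ^ 2 := by
  have hS : 0 < qf w + qf b + 2 * cf w b := by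
    have := qf_pos w; have := qf_pos b; have := cf_pos w b; linarith
  have hp : ∀ x, p0 x = qf x - x / 2 := fun x => by rw [qf]; ring
  have hp1 : ∀ x, p1 x = qf x + x / 2 := fun x => by rw [p1, qf]; ring
  rw [Gf, sf, hp, hp, hp1, hp1]
  set S := qf w + qf b + 2 * cf w b with hSdef
  have hc : 4 * cf w b = 2 * S - 2 * (qf w + qf b) := by rw [hSdef]; ring
  rw [hc]
  field_simp
  ring

/-- The quadratic inequality behind the network, complex version. -/
theorem Gf_le (w b : ℝ) (z t : ℂ) :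
    Gf w b * ‖z‖ ^ 2 ≤ (p0 w + p0 b) * ‖(1 / 2 : ℝ) • z - t‖ ^ 2
      + (p1 w + p1 b) * ‖(1 / 2 : ℝ) • z + t‖ ^ 2 + 4 * cf w b * ‖t‖ ^ 2 := by
  have hS : 0 < qf w + qf b + 2 * cf w b := by
    have := qf_pos w; have := qf_pos b; have := cf_pos w b; linarith
  have hp : ∀ x, p0 x = qf x - x / 2 := fun x => by rw [qf]; ring
  have hp1 : ∀ x, p1 x = qf x + x / 2 := fun x => by rw [p1, qf]; ring
  have key : ∀ x s : ℝ, Gf w b * x ^ 2 ≤ (p0 w + p0 b) * (1 / 2 * x - s) ^ 2
      + (p1 w + p1 b) * (1 / 2 * x + s) ^ 2 + 4 * cf w b * s ^ 2 := by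
    intro x s
    rw [Gf, hp, hp, hp1, hp1]
    set S := qf w + qf b + 2 * cf w b with hSdef
    have hc : 4 * cf w b = 2 * S - 2 * (qf w + qf b) := by rw [hSdef]; ring
    rw [hc]
    have e : (qf w - w / 2 + (qf b - b / 2)) * (1 / 2 * x - s) ^ 2
        + (qf w + w / 2 + (qf b + b / 2)) * (1 / 2 * x + s) ^ 2
        + (2 * S - 2 * (qf w + qf b)) * s ^ 2
        - ((qf w + qf b) / 2 - (w + b) ^ 2 / (8 * S)) * x ^ 2
        = 2 * S * (s + (w + b) * x / (4 * S)) ^ 2 := by
      field_simp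
      ring
    have : 0 ≤ 2 * S * (s + (w + b) * x / (4 * S)) ^ 2 := by positivity
    linarith
  have hn : ∀ v : ℂ, ‖v‖ ^ 2 = v.re ^ 2 + v.im ^ 2 := by
    intro v
    rw [← Complex.normSq_eq_norm_sq, Complex.normSq_apply]
    ring
  have h1 := key z.re t.re
  have h2 := key z.im t.im
  simp only [hn, Complex.sub_re, Complex.sub_im, Complex.add_re, Complex.add_im,
    Complex.real_smul, Complex.mul_re, Complex.mul_im, Complex.ofReal_re, Complex.ofReal_im,
    zero_mul, sub_zero, add_zero]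
  nlinarith [h1, h2]

end

end Vale.Agent.P369.H255
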