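import Vale.Agent.P369.MathlibUsed

/-!
Domination of diagonal weights through a finite matrix, and the operations that keep it:
sums, integrals, series (harmonic) combinations and passage to the transposed matrix.
-/

namespace Vale.Agent.P369.H255

open scoped BigOperators Matrix
open MeasureTheory

noncomputable section

/-- The weight `a` on the rows, seen through the matrix `T`, is at most the weight `A`
on the columns. -/
def Dom {I J : Type} [Fintype I] [Fintype J] (T : Matrix J I ℂ) (a : J → ℝ) (A : I → ℝ) :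
    Prop :=
  ∀ h : I → ℂ, ∑ j, a j * ‖(T *ᵥ h) j‖ ^ 2 ≤ ∑ i, A i * ‖h i‖ ^ 2

variable {I J : Type} [Fintype I] [Fintype J] {T : Matrix J I ℂ}

theorem Dom.mono {a a' : J → ℝ} {A A' : I → ℝ} (h : Dom T a A) (ha : ∀ j, a' j ≤ a j)
    (hA : ∀ i, A i ≤ A' i) : Dom T a' A' := by
  intro g
  refine le_trans (Finset.sum_le_sum fun j _ => ?_) ((h g).trans
    (Finset.sum_le_sum fun i _ => ?_))
  · exact mul_le_mul_of_nonneg_right (ha j) (by positivity)
  · exact mul_le_mul_of_nonneg_right (hA i) (by positivity)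

theorem Dom.add {a b : J → ℝ} {A B : I → ℝ} (h : Dom T a A) (h' : Dom T b B) :
    Dom T (fun j => a j + b j) (fun i => A i + B i) := by
  intro g
  have := add_le_add (h g) (h' g)
  simpa only [add_mul, Finset.sum_add_distrib] using this

theorem Dom.smul {a : J → ℝ} {A : I → ℝ} (h : Dom T a A) {c : ℝ} (hc : 0 ≤ c) :
    Dom T (fun j => c * a j) (fun i => c * A i) := by
  intro g
  have := mul_le_mul_of_nonneg_left (h g) hc
  simpa only [Finset.mul_sum, mul_assoc] using this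

theorem Dom.integral {a : ℝ → J → ℝ} {A : ℝ → I → ℝ}
    (h : ∀ m ∈ Set.Icc (0 : ℝ) 1, Dom T (a m) (A m))
    (ha : ∀ j, IntervalIntegrable (fun m => a m j) volume 0 1)
    (hA : ∀ i, IntervalIntegrable (fun m => A m i) volume 0 1) :
    Dom T (fun j => ∫ m in (0 : ℝ)..1, a m j) (fun i => ∫ m in (0 : ℝ)..1, A m i) := by
  intro g
  have e1 : ∑ j, (∫ m in (0 : ℝ)..1, a m j) * ‖(T *ᵥ g) j‖ ^ 2
      = ∫ m in (0 : ℝ)..1, ∑ j, a m j * ‖(T *ᵥ g) j‖ ^ 2 := by
    rw [intervalIntegral.integral_finsetSum]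
    · exact Finset.sum_congr rfl fun j _ => by rw [intervalIntegral.integral_mul_const]
    · intro j _
      exact (ha j).mul_const _
  have e2 : ∑ i, (∫ m in (0 : ℝ)..1, A m i) * ‖g i‖ ^ 2
      = ∫ m in (0 : ℝ)..1, ∑ i, A m i * ‖g i‖ ^ 2 := by
    rw [intervalIntegral.integral_finsetSum]
    · exact Finset.sum_congr rfl fun j _ => by rw [intervalIntegral.integral_mul_const]
    · intro j _
      exact (hA j).mul_const _
  show ∑ j, (∫ m in (0 : ℝ)..1, a m j) * ‖(T *ᵥ g) j‖ ^ 2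
      ≤ ∑ i, (∫ m in (0 : ℝ)..1, A m i) * ‖g i‖ ^ 2
  rw [e1, e2]
  refine intervalIntegral.integral_mono_on zero_le_one ?_ ?_ fun m hm => h m hm g
  · have := IntervalIntegrable.sum (μ := volume) (a := (0:ℝ)) (b := 1) Finset.univ
      (f := fun j m => a m j * ‖(T *ᵥ g) j‖ ^ 2) (fun j _ => (ha j).mul_const _)
    simpa [Finset.sum_fn] using this
  · have := IntervalIntegrable.sum (μ := volume) (a := (0:ℝ)) (b := 1) Finset.univ
      (f := fun j m => A m j * ‖g j‖ ^ 2) (fun j _ => (hA j).mul_const _)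
    simpa [Finset.sum_fn] using this

/-- Passage to the transposed matrix. -/
theorem Dom.dual {a : J → ℝ} {A : I → ℝ} (h : Dom T a A) (ha : ∀ j, 0 < a j)
    (hA : ∀ i, 0 < A i) : Dom Tᴴ (fun i => (A i)⁻¹) (fun j => (a j)⁻¹) := by
  intro g
  set k : I → ℂ := Tᴴ *ᵥ g with hk
  set u : I → ℂ := fun i => ((A i)⁻¹ : ℝ) * k i with hu
  have h1 : ∑ i, A i * ‖u i‖ ^ 2 = ∑ i, (A i)⁻¹ * ‖k i‖ ^ 2 := by
    refine Finset.sum_congr rfl fun i _ => ?_
    have := (hA i).ne'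
    simp only [hu, norm_mul, Complex.norm_real, Real.norm_eq_abs, mul_pow, sq_abs]
    field_simp
  have h2 : (∑ i, (A i)⁻¹ * ‖k i‖ ^ 2 : ℝ) = (star u ⬝ᵥ k).re := by
    simp only [dotProduct, Complex.re_sum]
    refine Finset.sum_congr rfl fun i _ => ?_
    have : star u i * k i = (((A i)⁻¹ * ‖k i‖ ^ 2 : ℝ) : ℂ) := by
      simp only [hu, Pi.star_apply, star_mul', RCLike.star_def, Complex.conj_ofReal]
      rw [mul_assoc, Complex.conj_mul']
      push_cast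
      ring
    rw [this, Complex.ofReal_re]
  have h3 : star u ⬝ᵥ k = star (T *ᵥ u) ⬝ᵥ g := by
    rw [hk, Matrix.dotProduct_mulVec, Matrix.star_mulVec]
  have h4 : (star (T *ᵥ u) ⬝ᵥ g).re
      ≤ ∑ j, (a j * ‖(T *ᵥ u) j‖ ^ 2 + (a j)⁻¹ * ‖g j‖ ^ 2) / 2 := by
    simp only [dotProduct, Complex.re_sum]
    refine Finset.sum_le_sum fun j _ => ?_
    have e1 : (star (T *ᵥ u) j * g j).re ≤ ‖(T *ᵥ u) j‖ * ‖g j‖ := by
      refine (Complex.re_le_norm _).trans ?_
      rw [norm_mul, Pi.star_apply, norm_star]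
    refine e1.trans ?_
    have haj := ha j
    have e2 : 0 ≤ (a j * ‖(T *ᵥ u) j‖ - ‖g j‖) ^ 2 / (a j) := by positivity
    have e3 : (a j * ‖(T *ᵥ u) j‖ - ‖g j‖) ^ 2 / (a j)
        = a j * ‖(T *ᵥ u) j‖ ^ 2 + (a j)⁻¹ * ‖g j‖ ^ 2 - 2 * (‖(T *ᵥ u) j‖ * ‖g j‖) := by
      field_simp
      ring
    linarith
  have h5 := h u
  rw [h1] at h5
  rw [← h3, ← h2, ← Finset.sum_div, Finset.sum_add_distrib] at h4
  linarith

theorem Dom.of_dual {a : J → ℝ} {A : I → ℝ}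
    (h : Dom Tᴴ (fun i => (A i)⁻¹) (fun j => (a j)⁻¹)) (ha : ∀ j, 0 < a j)
    (hA : ∀ i, 0 < A i) : Dom T a A := by
  have := h.dual (fun i => inv_pos.2 (hA i)) (fun j => inv_pos.2 (ha j))
  simpa using this

/-- Series connection of two conductances. -/
theorem Dom.series {a b : J → ℝ} {A B : I → ℝ} (h : Dom T a A) (h' : Dom T b B)
    (ha : ∀ j, 0 < a j) (hb : ∀ j, 0 < b j) (hA : ∀ i, 0 < A i) (hB : ∀ i, 0 < B i) :
    Dom T (fun j => ((a j)⁻¹ + (b j)⁻¹)⁻¹) (fun i => ((A i)⁻¹ + (B i)⁻¹)⁻¹) := by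
  have h1 := (h.dual ha hA).add (h'.dual hb hB)
  refine Dom.of_dual (by simpa using h1) (fun j => ?_) (fun i => ?_)
  · have := ha j; have := hb j; positivity
  · have := hA i; have := hB i; positivity

/-- Series connection of a family of conductances. -/
theorem Dom.seriesInt {a : ℝ → J → ℝ} {A : ℝ → I → ℝ}
    (h : ∀ m ∈ Set.Icc (0 : ℝ) 1, Dom T (a m) (A m))
    (ha0 : ∀ m ∈ Set.Icc (0 : ℝ) 1, ∀ j, 0 < a m j)
    (hA0 : ∀ m ∈ Set.Icc (0 : ℝ) 1, ∀ i, 0 < A m i)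
    (ha : ∀ j, IntervalIntegrable (fun m => (a m j)⁻¹) volume 0 1)
    (hA : ∀ i, IntervalIntegrable (fun m => (A m i)⁻¹) volume 0 1) :
    Dom T (fun j => (∫ m in (0 : ℝ)..1, (a m j)⁻¹)⁻¹)
      (fun i => (∫ m in (0 : ℝ)..1, (A m i)⁻¹)⁻¹) := by
  have h1 : Dom Tᴴ (fun i => ∫ m in (0 : ℝ)..1, (A m i)⁻¹)
      (fun j => ∫ m in (0 : ℝ)..1, (a m j)⁻¹) :=
    Dom.integral (fun m hm => (h m hm).dual (ha0 m hm) (hA0 m hm)) hA ha
  have pos : ∀ f : ℝ → ℝ, IntervalIntegrable f volume 0 1 →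
      (∀ m ∈ Set.Icc (0 : ℝ) 1, 0 < f m) → 0 < ∫ m in (0 : ℝ)..1, f m := by
    intro f hf hp
    exact intervalIntegral.intervalIntegral_pos_of_pos_on hf
      (fun x hx => hp x ⟨hx.1.le, hx.2.le⟩) one_pos
  refine Dom.of_dual (by simpa using h1) (fun j => ?_) (fun i => ?_)
  · exact inv_pos.2 (pos _ (ha j) fun m hm => inv_pos.2 (ha0 m hm j))
  · exact inv_pos.2 (pos _ (hA i) fun m hm => inv_pos.2 (hA0 m hm i))

end

end Vale.Agent.P369.H255
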