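import Vale.Agent.P369.H255.Gam

/-!
The operator inequality for `G(w,b)`, for finite matrices, with a factor `κ ≥ 1` on the
`b`-side and the resulting strictly positive remainder.
-/

namespace Vale.Agent.P369.H255

open Real MeasureTheory
open scoped BigOperators Matrix

noncomputable section

theorem mixp_pos (w m : ℝ) (hm : m ∈ Set.Icc (0 : ℝ) 1) : 0 < (1 - m) * p0 w + m * p1 w := by
  have := mix_pos' (p1_pos w) (p0_pos w) hm
  linarith

theorem mixp_cont (w : ℝ) :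
    ContinuousOn (fun m : ℝ => ((1 - m) * p0 w + m * p1 w)⁻¹) (Set.Icc 0 1) :=
  ContinuousOn.inv₀ (by fun_prop) fun m hm => (mixp_pos w m hm).ne'

/-- The logarithmic mean of `p₀(w)` and `p₁(w)` is one. -/
theorem integral_mixp (w : ℝ) :
    ∫ m in (0 : ℝ)..1, ((1 - m) * p0 w + m * p1 w)⁻¹ = 1 := by
  rcases eq_or_ne w 0 with h | h
  · subst h
    have : ∀ m : ℝ, ((1 - m) * p0 0 + m * p1 0)⁻¹ = 1 := by
      intro m
      rw [p1, p0_zero]
      ring_nf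
    simp [this]
  · have hd : ∀ m ∈ Set.uIcc (0 : ℝ) 1, HasDerivAt
        (fun m : ℝ => Real.log ((1 - m) * p0 w + m * p1 w) / w)
        (((1 - m) * p0 w + m * p1 w)⁻¹) m := by
      intro m hm
      rw [Set.uIcc_of_le zero_le_one] at hm
      have hp := mixp_pos w m hm
      have h1 : HasDerivAt (fun m : ℝ => (1 - m) * p0 w + m * p1 w)
          (-1 * p0 w + 1 * p1 w) m :=
        (((hasDerivAt_id m).const_sub 1).mul_const _).add ((hasDerivAt_id m).mul_const _)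
      refine ((h1.log hp.ne').div_const w).congr_deriv ?_
      have e : -1 * p0 w + 1 * p1 w = w := by have := p1_sub_p0 w; linarith
      rw [e]
      field_simp
    rw [intervalIntegral.integral_eq_sub_of_hasDerivAt hd]
    · have e1 : (1 - (1 : ℝ)) * p0 w + 1 * p1 w = p1 w := by ring
      have e2 : (1 - (0 : ℝ)) * p0 w + 0 * p1 w = p0 w := by ring
      rw [e1, e2, ← sub_div, p1_eq, Real.log_mul (p0_pos w).ne' (Real.exp_pos w).ne',
        Real.log_exp, add_sub_cancel_left, div_self h]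
    · exact ContinuousOn.intervalIntegrable_of_Icc zero_le_one (mixp_cont w)

variable {I J : Type} [Fintype I] [Fintype J] {T : Matrix J I ℂ}

/-- The reference weight `1`. -/
theorem dom_one {w : J → ℝ} {W : I → ℝ} {κ : ℝ} (hκ : 0 < κ)
    (h0 : Dom T (fun j => p0 (w j)) (fun i => κ * p0 (W i)))
    (h1 : Dom T (fun j => p1 (w j)) (fun i => κ * p1 (W i))) :
    Dom T (fun _ => 1) (fun _ => κ) := by
  have hs := Dom.seriesInt (T := T)
    (a := fun m j => (1 - m) * p0 (w j) + m * p1 (w j))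
    (A := fun m i => κ * ((1 - m) * p0 (W i) + m * p1 (W i)))
    (fun m hm => ?_) (fun m hm j => mixp_pos _ m hm)
    (fun m hm i => mul_pos hκ (mixp_pos _ m hm)) (fun j => ?_) (fun i => ?_)
  · refine hs.mono (fun j => ?_) (fun i => ?_)
    · show 1 ≤ _
      rw [integral_mixp]; simp
    · show _ ≤ κ
      simp only [mul_inv, intervalIntegral.integral_const_mul, integral_mixp]
      simp
  · refine ((h0.smul (sub_nonneg.2 hm.2)).add (h1.smul hm.1)).mono (fun j => le_rfl)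
      (fun i => le_of_eq ?_)
    ring
  · exact ContinuousOn.intervalIntegrable_of_Icc zero_le_one (mixp_cont _)
  · simp only [mul_inv]
    exact (ContinuousOn.intervalIntegrable_of_Icc zero_le_one (mixp_cont _)).const_mul _

/-- `F` as an integral of weighted harmonic means. -/
theorem integral_har (w : ℝ) :
    ∫ m in (0 : ℝ)..1, ((1 - m) * (p1 w)⁻¹ + m * (p0 w)⁻¹)⁻¹ = Ff w := by
  have h0 := p0_pos w
  have h1 := p1_pos w
  have e : ∀ m ∈ Set.uIcc (0 : ℝ) 1, ((1 - m) * (p1 w)⁻¹ + m * (p0 w)⁻¹)⁻¹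
      = Ff w * ((1 - m) * p0 w + m * p1 w)⁻¹ := by
    intro m hm
    rw [Set.uIcc_of_le zero_le_one] at hm
    have := mixp_pos w m hm
    rw [Ff]
    field_simp
  rw [intervalIntegral.integral_congr e, intervalIntegral.integral_const_mul, integral_mixp,
    mul_one]

theorem dom_har {a b : J → ℝ} {A B : I → ℝ} (h : Dom T a A) (h' : Dom T b B)
    (ha : ∀ j, 0 < a j) (hb : ∀ j, 0 < b j) (hA : ∀ i, 0 < A i) (hB : ∀ i, 0 < B i)
    {m : ℝ} (hm : m ∈ Set.Icc (0 : ℝ) 1) :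
    Dom T (fun j => ((1 - m) * (b j)⁻¹ + m * (a j)⁻¹)⁻¹)
      (fun i => ((1 - m) * (B i)⁻¹ + m * (A i)⁻¹)⁻¹) := by
  have h1 := ((h'.dual hb hB).smul (sub_nonneg.2 hm.2)).add ((h.dual ha hA).smul hm.1)
  refine Dom.of_dual (by simpa only [inv_inv] using h1) (fun j => ?_) (fun i => ?_)
  · have := mix_pos' (inv_pos.2 (ha j)) (inv_pos.2 (hb j)) hm
    exact inv_pos.2 (by linarith)
  · have := mix_pos' (inv_pos.2 (hA i)) (inv_pos.2 (hB i)) hm
    exact inv_pos.2 (by linarith)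

theorem har_cont {a b : ℝ} (ha : 0 < a) (hb : 0 < b) :
    ContinuousOn (fun m : ℝ => ((1 - m) * b⁻¹ + m * a⁻¹)⁻¹) (Set.Icc 0 1) :=
  ContinuousOn.inv₀ (by fun_prop) fun m hm => by
    have := mix_pos' (inv_pos.2 ha) (inv_pos.2 hb) hm
    linarith

theorem dom_Ff {w : J → ℝ} {W : I → ℝ} {κ : ℝ} (hκ : 0 < κ)
    (h0 : Dom T (fun j => p0 (w j)) (fun i => κ * p0 (W i)))
    (h1 : Dom T (fun j => p1 (w j)) (fun i => κ * p1 (W i))) :
    Dom T (fun j => Ff (w j)) (fun i => κ * Ff (W i)) := by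
  have h := Dom.integral (T := T)
    (a := fun m j => ((1 - m) * (p1 (w j))⁻¹ + m * (p0 (w j))⁻¹)⁻¹)
    (A := fun m i => ((1 - m) * (κ * p1 (W i))⁻¹ + m * (κ * p0 (W i))⁻¹)⁻¹)
    (fun m hm => dom_har h0 h1 (fun _ => p0_pos _) (fun _ => p1_pos _)
      (fun _ => mul_pos hκ (p0_pos _)) (fun _ => mul_pos hκ (p1_pos _)) hm)
    (fun j => ContinuousOn.intervalIntegrable_of_Icc zero_le_one
      (har_cont (p0_pos _) (p1_pos _)))
    (fun i => ContinuousOn.intervalIntegrable_of_Icc zero_le_one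
      (har_cont (mul_pos hκ (p0_pos _)) (mul_pos hκ (p1_pos _))))
  refine h.mono (fun j => ?_) (fun i => ?_)
  · rw [integral_har]
  · refine le_of_eq ?_
    rw [← integral_har, ← intervalIntegral.integral_const_mul]
    refine intervalIntegral.integral_congr fun m _ => ?_
    show ((1 - m) * (κ * p1 (W i))⁻¹ + m * (κ * p0 (W i))⁻¹)⁻¹
      = κ * ((1 - m) * (p1 (W i))⁻¹ + m * (p0 (W i))⁻¹)⁻¹
    have e : (1 - m) * (κ * p1 (W i))⁻¹ + m * (κ * p0 (W i))⁻¹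
        = κ⁻¹ * ((1 - m) * (p1 (W i))⁻¹ + m * (p0 (W i))⁻¹) := by
      rw [mul_inv, mul_inv]; ring
    rw [e, mul_inv, inv_inv]

/-- The middle branch. -/
theorem dom_cf {w b : J → ℝ} {W B : I → ℝ} {κ : ℝ} (hκ : 1 ≤ κ)
    (h0 : Dom T (fun j => p0 (w j)) (fun i => p0 (W i)))
    (h1 : Dom T (fun j => p1 (w j)) (fun i => p1 (W i)))
    (k0 : Dom T (fun j => p0 (b j)) (fun i => κ * p0 (B i)))
    (k1 : Dom T (fun j => p1 (b j)) (fun i => κ * p1 (B i))) :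
    Dom T (fun j => cf (w j) (b j)) (fun i => κ * cf (W i) (B i)) := by
  have hκ0 : 0 < κ := by linarith
  have f1 : Dom T (fun j => Ff (w j)) (fun i => κ * Ff (W i)) := by
    have := dom_Ff (T := T) (w := w) (W := W) one_pos (by simpa using h0) (by simpa using h1)
    refine this.mono (fun _ => le_rfl) (fun i => ?_)
    exact mul_le_mul_of_nonneg_right hκ (Ff_pos _).le
  have f2 := dom_Ff hκ0 k0 k1
  have f3 := dom_one hκ0 k0 k1
  have h := dom_rod gg_gam (T := T) (f₁ := fun j => Ff (w j)) (f₂ := fun j => Ff (b j))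
    (k := fun _ => 1) (F₁ := fun i => κ * Ff (W i)) (F₂ := fun i => κ * Ff (B i))
    (K := fun _ => κ) (fun j => ⟨Ff_pos _, Ff_le_one _⟩) (fun j => ⟨Ff_pos _, Ff_le_one _⟩)
    (fun i => ⟨mul_pos hκ0 (Ff_pos _), mul_le_of_le_one_right hκ0.le (Ff_le_one _)⟩)
    (fun i => ⟨mul_pos hκ0 (Ff_pos _), mul_le_of_le_one_right hκ0.le (Ff_le_one _)⟩)
    f1 f2 f3
  refine h.mono (fun _ => le_rfl) (fun i => le_of_eq ?_)
  have := rod_smul (γ := gam) (x₁ := Ff (W i)) (x₂ := Ff (B i)) (y := 1) hκ0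
  rw [mul_one] at this
  exact this

/-- **The operator inequality**, finite matrices, with a factor `κ` and a remainder. -/
theorem OI_fin {w b : J → ℝ} {W B : I → ℝ} {κ : ℝ} (hκ : 1 ≤ κ)
    (h0 : Dom T (fun j => p0 (w j)) (fun i => p0 (W i)))
    (h1 : Dom T (fun j => p1 (w j)) (fun i => p1 (W i)))
    (k0 : Dom T (fun j => p0 (b j)) (fun i => κ * p0 (B i)))
    (k1 : Dom T (fun j => p1 (b j)) (fun i => κ * p1 (B i))) (h : I → ℂ) :
    ∑ j, Gf (w j) (b j) * ‖(T *ᵥ h) j‖ ^ 2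
        + (κ - 1) * ∑ i, p0 (W i) * p1 (W i) / (p0 (W i) + p1 (W i)) * ‖h i‖ ^ 2
      ≤ κ * ∑ i, Gf (W i) (B i) * ‖h i‖ ^ 2 := by
  have hc := dom_cf hκ h0 h1 k0 k1
  set s : I → ℝ := fun i => sf (W i) (B i) with hs
  set hm : I → ℂ := fun i => ((1 / 2 - s i : ℝ) : ℂ) * h i with hhm
  set hp : I → ℂ := fun i => ((1 / 2 + s i : ℝ) : ℂ) * h i with hhp
  set he : I → ℂ := fun i => ((s i : ℝ) : ℂ) * h i with hhe
  have e1 : T *ᵥ hm = fun j => (1 / 2 : ℝ) • (T *ᵥ h) j - (T *ᵥ he) j := by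
    have : hm = (1 / 2 : ℝ) • h - he := by
      funext i
      simp only [hhm, hhe, Pi.sub_apply, Pi.smul_apply, Complex.real_smul]
      push_cast
      ring
    rw [this, Matrix.mulVec_sub, Matrix.mulVec_smul]
    rfl
  have e2 : T *ᵥ hp = fun j => (1 / 2 : ℝ) • (T *ᵥ h) j + (T *ᵥ he) j := by
    have : hp = (1 / 2 : ℝ) • h + he := by
      funext i
      simp only [hhp, hhe, Pi.add_apply, Pi.smul_apply, Complex.real_smul]
      push_cast
      ring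
    rw [this, Matrix.mulVec_add, Matrix.mulVec_smul]
    rfl
  have a1 := h0 hm
  have a2 := k0 hm
  have a3 := h1 hp
  have a4 := k1 hp
  have a5 := hc he
  have b1 : ∑ j, Gf (w j) (b j) * ‖(T *ᵥ h) j‖ ^ 2
      ≤ ∑ j, ((p0 (w j) + p0 (b j)) * ‖(T *ᵥ hm) j‖ ^ 2
        + (p1 (w j) + p1 (b j)) * ‖(T *ᵥ hp) j‖ ^ 2
        + 4 * cf (w j) (b j) * ‖(T *ᵥ he) j‖ ^ 2) := by
    refine Finset.sum_le_sum fun j _ => ?_
    rw [e1, e2]
    exact Gf_le _ _ _ _
  have b2 : ∑ j, ((p0 (w j) + p0 (b j)) * ‖(T *ᵥ hm) j‖ ^ 2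
        + (p1 (w j) + p1 (b j)) * ‖(T *ᵥ hp) j‖ ^ 2
        + 4 * cf (w j) (b j) * ‖(T *ᵥ he) j‖ ^ 2)
      = ∑ j, p0 (w j) * ‖(T *ᵥ hm) j‖ ^ 2 + ∑ j, p0 (b j) * ‖(T *ᵥ hm) j‖ ^ 2
        + (∑ j, p1 (w j) * ‖(T *ᵥ hp) j‖ ^ 2 + ∑ j, p1 (b j) * ‖(T *ᵥ hp) j‖ ^ 2)
        + 4 * ∑ j, cf (w j) (b j) * ‖(T *ᵥ he) j‖ ^ 2 := by
    rw [← Finset.sum_add_distrib, ← Finset.sum_add_distrib, ← Finset.sum_add_distrib,
      Finset.mul_sum, ← Finset.sum_add_distrib]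
    exact Finset.sum_congr rfl fun j _ => by ring
  have nm : ∀ i, ‖hm i‖ ^ 2 = (1 / 2 - s i) ^ 2 * ‖h i‖ ^ 2 := by
    intro i
    simp only [hhm, norm_mul, Complex.norm_real, Real.norm_eq_abs, mul_pow, sq_abs]
  have np : ∀ i, ‖hp i‖ ^ 2 = (1 / 2 + s i) ^ 2 * ‖h i‖ ^ 2 := by
    intro i
    simp only [hhp, norm_mul, Complex.norm_real, Real.norm_eq_abs, mul_pow, sq_abs]
  have ne : ∀ i, ‖he i‖ ^ 2 = s i ^ 2 * ‖h i‖ ^ 2 := by
    intro i
    simp only [hhe, norm_mul, Complex.norm_real, Real.norm_eq_abs, mul_pow, sq_abs]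
  have b3 : ∑ i, p0 (W i) * ‖hm i‖ ^ 2 + ∑ i, κ * p0 (B i) * ‖hm i‖ ^ 2
        + (∑ i, p1 (W i) * ‖hp i‖ ^ 2 + ∑ i, κ * p1 (B i) * ‖hp i‖ ^ 2)
        + 4 * ∑ i, κ * cf (W i) (B i) * ‖he i‖ ^ 2
        + (κ - 1) * ∑ i, p0 (W i) * p1 (W i) / (p0 (W i) + p1 (W i)) * ‖h i‖ ^ 2
      ≤ κ * ∑ i, Gf (W i) (B i) * ‖h i‖ ^ 2 := by
    rw [← Finset.sum_add_distrib, ← Finset.sum_add_distrib, ← Finset.sum_add_distrib,
      Finset.mul_sum, Finset.mul_sum, Finset.mul_sum, ← Finset.sum_add_distrib,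
      ← Finset.sum_add_distrib]
    refine Finset.sum_le_sum fun i _ => ?_
    rw [nm, np, ne, Gf_eq]
    have hP := p0_pos (W i)
    have hQ := p1_pos (W i)
    have hx : p0 (W i) * p1 (W i) / (p0 (W i) + p1 (W i))
        ≤ p0 (W i) * (1 / 2 - s i) ^ 2 + p1 (W i) * (1 / 2 + s i) ^ 2 := by
      rw [div_le_iff₀ (by positivity)]
      nlinarith [sq_nonneg (p0 (W i) * (1 / 2 - s i) - p1 (W i) * (1 / 2 + s i))]
    have hh : 0 ≤ ‖h i‖ ^ 2 := by positivity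
    have := mul_le_mul_of_nonneg_right (mul_le_mul_of_nonneg_left hx (sub_nonneg.2 hκ)) hh
    simp only [hs] at this ⊢
    nlinarith [this]
  rw [b2] at b1
  linarith

end

end Vale.Agent.P369.H255
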