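import Vale.Agent.P369.H255.OI

/-!
The operator inequality over arbitrary index types: all hypotheses and the conclusion are
stated for finite sets of columns and finite sets of rows.
-/

namespace Vale.Agent.P369.H255

open Real
open scoped BigOperators Matrix

noncomputable section

/-- Domination over arbitrary index types, in finite pieces. -/
def DomG {X Y : Type} (T : Y → X → ℂ) (a : Y → ℝ) (A : X → ℝ) : Prop :=
  ∀ (s : Finset X) (t : Finset Y) (h : X → ℂ),
    ∑ y ∈ t, a y * ‖∑ x ∈ s, T y x * h x‖ ^ 2 ≤ ∑ x ∈ s, A x * ‖h x‖ ^ 2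

variable {X Y : Type} {T : Y → X → ℂ}

theorem DomG.fin {a : Y → ℝ} {A : X → ℝ} (h : DomG T a A) (s : Finset X) (t : Finset Y) :
    Dom (Matrix.of fun (y : t) (x : s) => T y x) (fun y => a y) (fun x => A x) := by
  classical
  intro g
  set g' : X → ℂ := fun x => if hx : x ∈ s then g ⟨x, hx⟩ else 0 with hg'
  have e0 : ∀ x : s, g' x = g x := fun x => by simp [hg']
  have h1 := h s t g'
  have e1 : ∀ y : Y, ∑ x ∈ s, T y x * g' x = ∑ x : s, T y x * g x := by
    intro y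
    rw [← Finset.sum_coe_sort s (fun x => T y x * g' x)]
    exact Finset.sum_congr rfl fun x _ => by rw [e0]
  rw [← Finset.sum_coe_sort t (fun y => a y * ‖∑ x ∈ s, T y x * g' x‖ ^ 2),
    ← Finset.sum_coe_sort s (fun x => A x * ‖g' x‖ ^ 2)] at h1
  simpa only [Matrix.mulVec, dotProduct, Matrix.of_apply, e1, e0] using h1

/-- **The operator inequality**, arbitrary index types. -/
theorem OI_gen {w b : Y → ℝ} {W B : X → ℝ} {κ : ℝ} (hκ : 1 ≤ κ)
    (h0 : DomG T (fun y => p0 (w y)) (fun x => p0 (W x)))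
    (h1 : DomG T (fun y => p1 (w y)) (fun x => p1 (W x)))
    (k0 : DomG T (fun y => p0 (b y)) (fun x => κ * p0 (B x)))
    (k1 : DomG T (fun y => p1 (b y)) (fun x => κ * p1 (B x)))
    (s : Finset X) (t : Finset Y) (h : X → ℂ) :
    ∑ y ∈ t, Gf (w y) (b y) * ‖∑ x ∈ s, T y x * h x‖ ^ 2
        + (κ - 1) * ∑ x ∈ s, p0 (W x) * p1 (W x) / (p0 (W x) + p1 (W x)) * ‖h x‖ ^ 2
      ≤ κ * ∑ x ∈ s, Gf (W x) (B x) * ‖h x‖ ^ 2 := by
  have := OI_fin hκ (h0.fin s t) (h1.fin s t) (k0.fin s t) (k1.fin s t) (fun x : s => h x)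
  have e1 : ∀ y : Y, ∑ x ∈ s, T y x * h x = ∑ x : s, T y x * h x := fun y => by
    rw [← Finset.sum_coe_sort s (fun x => T y x * h x)]
  rw [← Finset.sum_coe_sort t (fun y => Gf (w y) (b y) * ‖∑ x ∈ s, T y x * h x‖ ^ 2),
    ← Finset.sum_coe_sort s (fun x => p0 (W x) * p1 (W x) / (p0 (W x) + p1 (W x)) * ‖h x‖ ^ 2),
    ← Finset.sum_coe_sort s (fun x => Gf (W x) (B x) * ‖h x‖ ^ 2)]
  simpa only [Matrix.mulVec, dotProduct, Matrix.of_apply, e1] using this

/-- Positivity of `G`. -/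
theorem Gf_pos (w b : ℝ) : 0 < Gf w b := by
  rw [Gf_eq]
  have h1 := p0_pos w
  have h2 := p0_pos b
  have h3 := p1_pos w
  have h4 := p1_pos b
  have h5 := cf_pos w b
  rcases eq_or_ne (1 / 2 - sf w b) 0 with h | h
  · have e : sf w b = 1 / 2 := by linarith
    rw [e]
    norm_num
    positivity
  · have : 0 < (1 / 2 - sf w b) ^ 2 := by positivity
    positivity

/-- For `w ≠ b`. -/
theorem Gf_of_ne {w b : ℝ} (h : w ≠ b) : Gf w b = (b * p0 w - w * p0 b) / (b - w) := by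
  have : b - w ≠ 0 := sub_ne_zero.2 h.symm
  rw [eq_div_iff this, Gf_mul]

end

end Vale.Agent.P369.H255
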