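import Vale.Agent.P369.H255.OICur

/-!
The operator inequality with the logarithmic-mean weights inside.  Rows with a vanishing
eigenvalue are allowed: their logarithmic mean is zero.
-/

namespace Vale.Agent.P369.H255

open Real
open scoped BigOperators Matrix

noncomputable section

/-- The logarithmic mean, zero if one of the arguments is not positive. -/
def lm (L R : ℝ) : ℝ :=
  if 0 < L ∧ 0 < R then R * (p0 (Real.log (L / R)))⁻¹ else 0

/-- The modular frequency. -/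
def fr (L R : ℝ) : ℝ := Real.log (L / R)

theorem lm_of_pos {L R : ℝ} (hL : 0 < L) (hR : 0 < R) : lm L R = R * (p0 (fr L R))⁻¹ := by
  simp [lm, fr, hL, hR]

theorem lm_pos {L R : ℝ} (hL : 0 < L) (hR : 0 < R) : 0 < lm L R := by
  rw [lm_of_pos hL hR]
  exact mul_pos hR (inv_pos.2 (p0_pos _))

theorem lm_nonneg (L R : ℝ) : 0 ≤ lm L R := by
  by_cases h : 0 < L ∧ 0 < R
  · exact (lm_pos h.1 h.2).le
  · simp [lm, h]

theorem lm_mul_p0 {L R : ℝ} (hL : 0 < L) (hR : 0 < R) : lm L R * p0 (fr L R) = R := by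
  rw [lm_of_pos hL hR, mul_assoc, inv_mul_cancel₀ (p0_pos _).ne', mul_one]

theorem lm_mul_p1 {L R : ℝ} (hL : 0 < L) (hR : 0 < R) : lm L R * p1 (fr L R) = L := by
  rw [p1_eq, ← mul_assoc, lm_mul_p0 hL hR, fr, Real.exp_log (by positivity)]
  field_simp

/-- `J w = L - R`. -/
theorem lm_mul_fr {L R : ℝ} (hL : 0 < L) (hR : 0 < R) : lm L R * fr L R = L - R := by
  have h1 := lm_mul_p0 hL hR
  have h2 := lm_mul_p1 hL hR
  rw [p1] at h2
  linear_combination h2 - h1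

/-- The quotient formula for the logarithmic mean. -/
theorem lm_eq_div {L R : ℝ} (hL : 0 < L) (hR : 0 < R) (h : L ≠ R) :
    lm L R = (L - R) / (Real.log L - Real.log R) := by
  have h1 := lm_mul_fr hL hR
  have h2 : fr L R ≠ 0 := by
    intro h0
    rw [h0, mul_zero] at h1
    exact h (by linarith)
  rw [fr, Real.log_div hL.ne' hR.ne'] at h1 h2
  rw [eq_div_iff h2, h1]

theorem lm_self {L : ℝ} (hL : 0 < L) : lm L L = L := by
  rw [lm_of_pos hL hL, fr, div_self hL.ne', Real.log_one, p0_zero]; simp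

theorem lm_comm (L R : ℝ) : lm L R = lm R L := by
  by_cases h : 0 < L ∧ 0 < R
  · have h1 := lm_mul_p1 h.1 h.2
    have h2 := lm_mul_p0 h.2 h.1
    have h3 : fr R L = -fr L R := by
      rw [fr, fr, ← Real.log_inv, inv_div]
    rw [h3, p0_neg] at h2
    have := p1_pos (fr L R)
    exact mul_right_cancel₀ this.ne' (h1.trans h2.symm)
  · have h' : ¬ (0 < R ∧ 0 < L) := fun h2 => h ⟨h2.2, h2.1⟩
    simp [lm, h, h']

variable {X Y : Type} {T : Y → X → ℂ}

/-- **The operator inequality in weighted form.**  `Ly, Ry` and `Lx, Rx` are the left and right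
weights of the rows and columns; `J = lm L R`, `w = fr L R`. -/
theorem OI_J {Ly Ry : Y → ℝ} {Lx Rx : X → ℝ} (hx : ∀ x, 0 < Lx x ∧ 0 < Rx x)
    {b : Y → ℝ} {B : X → ℝ} {κ : ℝ} (hκ : 1 ≤ κ)
    (hL : DomG T Ly Lx) (hR : DomG T Ry Rx)
    (hLy : ∀ y, 0 ≤ Ly y) (hRy : ∀ y, 0 ≤ Ry y)
    (k0 : DomG T (fun y => lm (Ly y) (Ry y) * p0 (b y))
      (fun x => κ * (lm (Lx x) (Rx x) * p0 (B x))))
    (k1 : DomG T (fun y => lm (Ly y) (Ry y) * p1 (b y))
      (fun x => κ * (lm (Lx x) (Rx x) * p1 (B x))))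
    (s : Finset X) (t : Finset Y) (h : X → ℂ) :
    ∑ y ∈ t, lm (Ly y) (Ry y) * Gf (fr (Ly y) (Ry y)) (b y) * ‖∑ x ∈ s, T y x * h x‖ ^ 2
        + (κ - 1) * ∑ x ∈ s, (lm (Lx x) (Rx x) * Gf (fr (Lx x) (Rx x)) (B x)) ^ 2
            / (Lx x + Rx x) * ‖h x‖ ^ 2
      ≤ κ * ∑ x ∈ s, lm (Lx x) (Rx x) * Gf (fr (Lx x) (Rx x)) (B x) * ‖h x‖ ^ 2 := by
  classical
  set P : Y → Prop := fun y => 0 < Ly y ∧ 0 < Ry y with hP
  set Jx : X → ℝ := fun x => lm (Lx x) (Rx x) with hJx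
  have hJx0 : ∀ x, 0 < Jx x := fun x => lm_pos (hx x).1 (hx x).2
  have hJy0 : ∀ y : {y // P y}, 0 < lm (Ly y) (Ry y) := fun y => lm_pos y.2.1 y.2.2
  set T' : {y // P y} → X → ℂ := fun y x =>
    (Real.sqrt (lm (Ly y) (Ry y)) : ℂ) * T y x * ((Real.sqrt (Jx x))⁻¹ : ℝ) with hT'
  have key : ∀ (y : {y // P y}) (s : Finset X) (g : X → ℂ),
      ‖∑ x ∈ s, T' y x * g x‖ ^ 2
        = lm (Ly y) (Ry y) * ‖∑ x ∈ s, T y x * (((Real.sqrt (Jx x))⁻¹ : ℝ) * g x)‖ ^ 2 := by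
    intro y s g
    have e : ∑ x ∈ s, T' y x * g x = (Real.sqrt (lm (Ly y) (Ry y)) : ℂ)
        * ∑ x ∈ s, T y x * (((Real.sqrt (Jx x))⁻¹ : ℝ) * g x) := by
      rw [Finset.mul_sum]
      exact Finset.sum_congr rfl fun x _ => by simp only [hT']; ring
    rw [e, norm_mul, mul_pow, Complex.norm_real, Real.norm_eq_abs, sq_abs,
      Real.sq_sqrt (hJy0 y).le]
  have nrm : ∀ (x : X) (z : ℂ), Jx x * ‖((Real.sqrt (Jx x))⁻¹ : ℝ) * z‖ ^ 2 = ‖z‖ ^ 2 := by
    intro x z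
    rw [norm_mul, mul_pow, Complex.norm_real, Real.norm_eq_abs, sq_abs, inv_pow,
      Real.sq_sqrt (hJx0 x).le, ← mul_assoc, mul_inv_cancel₀ (hJx0 x).ne', one_mul]
  -- transport of domination
  have tr : ∀ (a : Y → ℝ) (A : X → ℝ),
      DomG T (fun y => lm (Ly y) (Ry y) * a y) (fun x => Jx x * A x) →
      DomG T' (fun y : {y // P y} => a y) A := by
    intro a A hD s t g
    have h1 := hD s (t.map (Function.Embedding.subtype _))
      (fun x => ((Real.sqrt (Jx x))⁻¹ : ℝ) * g x)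
    rw [Finset.sum_map] at h1
    calc ∑ y ∈ t, a y * ‖∑ x ∈ s, T' y x * g x‖ ^ 2
        = ∑ y ∈ t, lm (Ly y) (Ry y) * a y
            * ‖∑ x ∈ s, T y x * (((Real.sqrt (Jx x))⁻¹ : ℝ) * g x)‖ ^ 2 :=
          Finset.sum_congr rfl fun y _ => by rw [key]; ring
      _ ≤ ∑ x ∈ s, Jx x * A x * ‖((Real.sqrt (Jx x))⁻¹ : ℝ) * g x‖ ^ 2 := h1
      _ = ∑ x ∈ s, A x * ‖g x‖ ^ 2 :=
          Finset.sum_congr rfl fun x _ => by rw [← nrm x (g x)]; ring
  -- the four hypotheses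
  have q0 : DomG T' (fun y => p0 (fr (Ly y) (Ry y))) (fun x => p0 (fr (Lx x) (Rx x))) := by
    refine tr (fun y => p0 (fr (Ly y) (Ry y))) _ ?_
    intro s t g
    refine le_trans (Finset.sum_le_sum fun y _ => ?_) ((hR s t g).trans (le_of_eq ?_))
    · refine mul_le_mul_of_nonneg_right ?_ (by positivity)
      beta_reduce
      by_cases hy : 0 < Ly y ∧ 0 < Ry y
      · rw [lm_mul_p0 hy.1 hy.2]
      · simp only [lm, hy, if_false, zero_mul]; exact hRy y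
    · exact Finset.sum_congr rfl fun x _ => by
        simp only [hJx]; rw [lm_mul_p0 (hx x).1 (hx x).2]
  have q1 : DomG T' (fun y => p1 (fr (Ly y) (Ry y))) (fun x => p1 (fr (Lx x) (Rx x))) := by
    refine tr (fun y => p1 (fr (Ly y) (Ry y))) _ ?_
    intro s t g
    refine le_trans (Finset.sum_le_sum fun y _ => ?_) ((hL s t g).trans (le_of_eq ?_))
    · refine mul_le_mul_of_nonneg_right ?_ (by positivity)
      beta_reduce
      by_cases hy : 0 < Ly y ∧ 0 < Ry y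
      · rw [lm_mul_p1 hy.1 hy.2]
      · simp only [lm, hy, if_false, zero_mul]; exact hLy y
    · exact Finset.sum_congr rfl fun x _ => by
        simp only [hJx]; rw [lm_mul_p1 (hx x).1 (hx x).2]
  have q2 : DomG T' (fun y => p0 (b y)) (fun x => κ * p0 (B x)) := by
    refine tr (fun y => p0 (b y)) (fun x => κ * p0 (B x)) ?_
    intro s t g
    refine (k0 s t g).trans (le_of_eq ?_)
    exact Finset.sum_congr rfl fun x _ => by simp only [hJx]; ring
  have q3 : DomG T' (fun y => p1 (b y)) (fun x => κ * p1 (B x)) := by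
    refine tr (fun y => p1 (b y)) (fun x => κ * p1 (B x)) ?_
    intro s t g
    refine (k1 s t g).trans (le_of_eq ?_)
    exact Finset.sum_congr rfl fun x _ => by simp only [hJx]; ring
  have main := OI_gen_cur hκ q0 q1 q2 q3 s (t.subtype P)
    (fun x => (Real.sqrt (Jx x) : ℂ) * h x)
  have c1 : ∀ x, ((Real.sqrt (Jx x))⁻¹ : ℝ) * ((Real.sqrt (Jx x) : ℂ) * h x) = h x := by
    intro x
    have : (Real.sqrt (Jx x) : ℂ) ≠ 0 := by
      rw [Ne, Complex.ofReal_eq_zero]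
      exact (Real.sqrt_pos.2 (hJx0 x)).ne'
    push_cast
    field_simp
  have c2 : ∀ x, ‖(Real.sqrt (Jx x) : ℂ) * h x‖ ^ 2 = Jx x * ‖h x‖ ^ 2 := by
    intro x
    rw [norm_mul, mul_pow, Complex.norm_real, Real.norm_eq_abs, sq_abs,
      Real.sq_sqrt (hJx0 x).le]
  have d1 : ∑ y ∈ t.subtype P, Gf (fr (Ly y) (Ry y)) (b y)
        * ‖∑ x ∈ s, T' y x * ((Real.sqrt (Jx x) : ℂ) * h x)‖ ^ 2
      = ∑ y ∈ t, lm (Ly y) (Ry y) * Gf (fr (Ly y) (Ry y)) (b y)
        * ‖∑ x ∈ s, T y x * h x‖ ^ 2 := by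
    have e : ∀ y : {y // P y}, Gf (fr (Ly y) (Ry y)) (b y)
        * ‖∑ x ∈ s, T' y x * ((Real.sqrt (Jx x) : ℂ) * h x)‖ ^ 2
        = lm (Ly y) (Ry y) * Gf (fr (Ly y) (Ry y)) (b y) * ‖∑ x ∈ s, T y x * h x‖ ^ 2 := by
      intro y
      rw [key]
      simp only [c1]
      ring
    rw [Finset.sum_congr rfl fun y _ => e y,
      Finset.sum_subtype_eq_sum_filter (s := t) (p := P)
        (fun y => lm (Ly y) (Ry y) * Gf (fr (Ly y) (Ry y)) (b y) * ‖∑ x ∈ s, T y x * h x‖ ^ 2)]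
    refine Finset.sum_subset (Finset.filter_subset _ _) fun y hy hy2 => ?_
    have : ¬ P y := fun hp => hy2 (Finset.mem_filter.2 ⟨hy, hp⟩)
    have h0 : lm (Ly y) (Ry y) = 0 := by
      simp only [hP] at this
      simp [lm, this]
    rw [h0]; ring
  rw [d1] at main
  simp only [c2] at main
  have d2 : ∀ x, Gf (fr (Lx x) (Rx x)) (B x) ^ 2
        / (p0 (fr (Lx x) (Rx x)) + p1 (fr (Lx x) (Rx x))) * (Jx x * ‖h x‖ ^ 2)
      = (lm (Lx x) (Rx x) * Gf (fr (Lx x) (Rx x)) (B x)) ^ 2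
            / (Lx x + Rx x) * ‖h x‖ ^ 2 := by
    intro x
    have e0 := lm_mul_p0 (hx x).1 (hx x).2
    have e1 := lm_mul_p1 (hx x).1 (hx x).2
    have g0 := p0_pos (fr (Lx x) (Rx x))
    have g1 := p1_pos (fr (Lx x) (Rx x))
    have gJ := hJx0 x
    simp only [hJx] at gJ ⊢
    set J := lm (Lx x) (Rx x)
    set P0 := p0 (fr (Lx x) (Rx x))
    set P1 := p1 (fr (Lx x) (Rx x))
    set G := Gf (fr (Lx x) (Rx x)) (B x)
    have e2 : Lx x + Rx x = J * (P0 + P1) := by rw [mul_add, e0, e1]; ring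
    rw [e2]
    field_simp
  have d3 : ∀ x, Gf (fr (Lx x) (Rx x)) (B x) * (Jx x * ‖h x‖ ^ 2)
      = lm (Lx x) (Rx x) * Gf (fr (Lx x) (Rx x)) (B x) * ‖h x‖ ^ 2 := by
    intro x; simp only [hJx]; ring
  simp only [d2, d3] at main
  exact main

/-- `J G(w, b) (b - w) = b R - p₀(b) (L - R)`; with `p₀(b) = b N` this is
`b ((N+1) R - N L)`. -/
theorem lm_Gf_mul {L R : ℝ} (hL : 0 < L) (hR : 0 < R) (b : ℝ) :
    lm L R * Gf (fr L R) b * (b - fr L R) = b * R - p0 b * (L - R) := by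
  have h1 := lm_mul_p0 hL hR
  have h2 := lm_mul_fr hL hR
  have h3 := Gf_mul (fr L R) b
  linear_combination (lm L R) * h3 + b * h1 - p0 b * h2

end

end Vale.Agent.P369.H255
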