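import Vale.Agent.P369.H255.OIJ

/-!
Scalar identities that connect `J G` with the logarithmic mean of `N L` and `(N+1) R`.
-/

namespace Vale.Agent.P369.H255

open Real
open scoped BigOperators

noncomputable section

theorem cf_self (b : ℝ) : cf b b = ((1 + (gam (Ff b))⁻¹) / Ff b)⁻¹ := by
  have e : ∀ m : ℝ, m * Ff b + (1 - m) * Ff b = Ff b := fun m => by ring
  simp only [cf, rod, e, rho_one, intervalIntegral.integral_const, sub_zero, one_smul]

/-- On the diagonal `G(b, b) = F(b) = p₀(b) p₁(b)`. -/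
theorem Gf_self (b : ℝ) : Gf b b = Ff b := by
  rcases eq_or_ne (Ff b) 1 with h | h
  · have hb : b = 0 := by
      have habs : |b| = 0 := by
        rw [← Ff_abs b, ← Ff_zero] at h
        exact strictAntiOn_Ff.injOn (Set.mem_Ici.2 (abs_nonneg b)) (Set.mem_Ici.2 le_rfl) h
      exact abs_eq_zero.1 habs
    subst hb
    rw [Gf, qf_zero, Ff_zero]; simp
  · have hF1 : Ff b < 1 := lt_of_le_of_ne (Ff_le_one b) h
    have hF0 := Ff_pos b
    have hb : b ≠ 0 := by
      intro h0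
      rw [h0, Ff_zero] at h
      exact h rfl
    have hq1 : 1 < qf b := by
      rw [← qf_abs]
      exact qf_gt_one (abs_pos.2 hb)
    have hqF : 0 < qf b - Ff b := by linarith
    have hs := qf_sq_sub b
    have hc : cf b b = Ff b * (qf b - 1) / (qf b - Ff b) := by
      rw [cf_self, gam_of_ne h, Qx_Ff]
      have h1 : qf b - 1 ≠ 0 := by linarith
      have h2 : (1 : ℝ) - Ff b ≠ 0 := by linarith
      have h3 : qf b - Ff b ≠ 0 := hqF.ne'
      have e : 1 + ((qf b - 1) / (1 - Ff b))⁻¹ = (qf b - Ff b) / (qf b - 1) := by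
        rw [inv_div]
        field_simp
        ring
      rw [e, inv_div, div_div_eq_mul_div]
    have h3 : qf b - Ff b ≠ 0 := hqF.ne'
    have e2 : qf b + qf b + 2 * cf b b = b ^ 2 / (2 * (qf b - Ff b)) := by
      rw [hc, eq_div_iff (by positivity)]
      field_simp
      linear_combination 4 * hs
    rw [Gf, e2]
    field_simp
    ring

/-- `G(0, b) = 1`. -/
theorem Gf_zero_left (b : ℝ) : Gf 0 b = 1 := by
  rcases eq_or_ne b 0 with h | h
  · rw [h, Gf_self, Ff_zero]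
  · rw [Gf_of_ne h.symm, p0_zero]
    field_simp
    ring

/-- `p₀(log (1 + 1/N)) = N log (1 + 1/N)`. -/
theorem p0_bN {N : ℝ} (hN : 0 < N) :
    p0 (Real.log (1 + 1 / N)) = N * Real.log (1 + 1 / N) := by
  have h1 : 0 < Real.log (1 + 1 / N) := Real.log_pos (by have := one_div_pos.2 hN; linarith)
  rw [p0_of_ne h1.ne', Real.exp_log (by positivity)]
  field_simp
  ring

/-- `p₁(log (1 + 1/N)) = (N+1) log (1 + 1/N)`. -/
theorem p1_bN {N : ℝ} (hN : 0 < N) :
    p1 (Real.log (1 + 1 / N)) = (N + 1) * Real.log (1 + 1 / N) := by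
  rw [p1, p0_bN hN]; ring

theorem lm_mul_left {c L R : ℝ} (hc : 0 < c) (hL : 0 < L) (hR : 0 < R) :
    lm (c * L) (c * R) = c * lm L R := by
  rw [lm_of_pos (mul_pos hc hL) (mul_pos hc hR), lm_of_pos hL hR, fr, fr,
    mul_div_mul_left _ _ hc.ne']
  ring

/-- `J G = b lm(N L, (N+1) R)`. -/
theorem lm_mul_Gf {L R N : ℝ} (hL : 0 < L) (hR : 0 < R) (hN : 0 < N) :
    lm L R * Gf (fr L R) (Real.log (1 + 1 / N))
      = Real.log (1 + 1 / N) * lm (N * L) ((N + 1) * R) := by
  set b := Real.log (1 + 1 / N) with hb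
  have hNL : 0 < N * L := mul_pos hN hL
  have hNR : 0 < (N + 1) * R := by positivity
  have hfr : fr (N * L) ((N + 1) * R) = fr L R - b := by
    have e1 : N * L / ((N + 1) * R) = (L / R) / (1 + 1 / N) := by field_simp
    rw [fr, fr, hb, e1, Real.log_div (by positivity) (by positivity)]
  rcases eq_or_ne (fr L R) b with h | h
  · rw [h, Gf_self, Ff, ← mul_assoc, ← h, lm_mul_p0 hL hR, h, hb, p1_bN hN, ← hb]
    have h0 : fr (N * L) ((N + 1) * R) = 0 := by rw [hfr, h, sub_self]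
    rw [lm_of_pos hNL hNR, h0, p0_zero]
    ring
  · have hne : b - fr L R ≠ 0 := sub_ne_zero.2 h.symm
    have h1 := lm_Gf_mul hL hR b
    have h2 := lm_mul_fr hNL hNR
    rw [hfr] at h2
    have h3 := p0_bN hN
    rw [← hb] at h3
    refine mul_right_cancel₀ hne ?_
    rw [h1, h3]
    linear_combination b * h2

theorem lm_mul_Gf' {L R N : ℝ} (hN : 0 < N) :
    lm L R * Gf (fr L R) (Real.log (1 + 1 / N))
      = Real.log (1 + 1 / N) * lm (N * L) ((N + 1) * R) := by
  by_cases h : 0 < L ∧ 0 < R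
  · exact lm_mul_Gf h.1 h.2 hN
  · have h' : ¬ (0 < N * L ∧ 0 < (N + 1) * R) := fun h2 =>
      h ⟨pos_of_mul_pos_right h2.1 hN.le, pos_of_mul_pos_right h2.2 (by linarith)⟩
    simp only [lm, if_neg h, if_neg h', zero_mul, mul_zero]

variable {X Y : Type} {T : Y → X → ℂ}

/-- **The operator inequality in photon-number form.**  Rows `y` have weights `L, R` and photon
number `Ny y`; columns have weights `L, R` and photon number `Nx x`. -/
theorem OI_N {Ly Ry : Y → ℝ} {Lx Rx : X → ℝ} (hx : ∀ x, 0 < Lx x ∧ 0 < Rx x)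
    {Ny : Y → ℝ} {Nx : X → ℝ} (hNy : ∀ y, 0 < Ny y) (hNx : ∀ x, 0 < Nx x)
    {κ : ℝ} (hκ : 1 ≤ κ)
    (hL : DomG T Ly Lx) (hR : DomG T Ry Rx)
    (hLy : ∀ y, 0 ≤ Ly y) (hRy : ∀ y, 0 ≤ Ry y)
    (k0 : DomG T (fun y => Real.log (1 + 1 / Ny y) * Ny y * lm (Ly y) (Ry y))
      (fun x => κ * (Real.log (1 + 1 / Nx x) * Nx x * lm (Lx x) (Rx x))))
    (k1 : DomG T (fun y => Real.log (1 + 1 / Ny y) * (Ny y + 1) * lm (Ly y) (Ry y))
      (fun x => κ * (Real.log (1 + 1 / Nx x) * (Nx x + 1) * lm (Lx x) (Rx x))))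
    (s : Finset X) (t : Finset Y) (h : X → ℂ) :
    ∑ y ∈ t, Real.log (1 + 1 / Ny y) * lm (Ny y * Ly y) ((Ny y + 1) * Ry y)
          * ‖∑ x ∈ s, T y x * h x‖ ^ 2
        + (κ - 1) * ∑ x ∈ s,
          (Real.log (1 + 1 / Nx x) * lm (Nx x * Lx x) ((Nx x + 1) * Rx x)) ^ 2
            / (Lx x + Rx x) * ‖h x‖ ^ 2
      ≤ κ * ∑ x ∈ s, Real.log (1 + 1 / Nx x) * lm (Nx x * Lx x) ((Nx x + 1) * Rx x)
          * ‖h x‖ ^ 2 := by
  have main := OI_J (T := T) hx (b := fun y => Real.log (1 + 1 / Ny y))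
    (B := fun x => Real.log (1 + 1 / Nx x)) hκ hL hR hLy hRy ?_ ?_ s t h
  · simpa only [lm_mul_Gf' (hNy _), lm_mul_Gf' (hNx _)] using main
  · intro s t g
    refine le_trans (le_of_eq ?_) ((k0 s t g).trans (le_of_eq ?_))
    · exact Finset.sum_congr rfl fun y _ => by
        simp only [p0_bN (hNy y)]; ring
    · exact Finset.sum_congr rfl fun x _ => by
        simp only [p0_bN (hNx x)]; ring
  · intro s t g
    refine le_trans (le_of_eq ?_) ((k1 s t g).trans (le_of_eq ?_))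
    · exact Finset.sum_congr rfl fun y _ => by
        simp only [p1_bN (hNy y)]; ring
    · exact Finset.sum_congr rfl fun x _ => by
        simp only [p1_bN (hNx x)]; ring

end

end Vale.Agent.P369.H255
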