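import Vale.Agent.P369.MathlibUsed
import Mathlib.Analysis.SpecialFunctions.Trigonometric.DerivHyp

/-!
The scalar functions `p₀(w) = w/(e^w-1)`, `p₁(w) = p₀(w) + w`, `q = (p₀+p₁)/2`, `F = p₀ p₁`,
their derivatives and the inequalities `q > 1`, `q + F > 2`, `q F ≤ 1`.
-/

namespace Vale.Agent.P369.H255

open Real Filter Topology

noncomputable section

/-- `w / (e^w - 1)`, continuous at `0`. -/
def p0 (w : ℝ) : ℝ := (dslope Real.exp 0 w)⁻¹

/-- `w e^w / (e^w - 1)`. -/
def p1 (w : ℝ) : ℝ := w + p0 w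

/-- The half sum. -/
def qf (w : ℝ) : ℝ := p0 w + w / 2

/-- The product. -/
def Ff (w : ℝ) : ℝ := p0 w * p1 w

theorem exp_sub_one_ne {w : ℝ} (hw : w ≠ 0) : Real.exp w - 1 ≠ 0 := by
  intro h
  apply hw
  have : Real.exp w = 1 := by linarith
  simpa using this

theorem p0_zero : p0 0 = 1 := by simp [p0, dslope_same]

theorem p0_of_ne {w : ℝ} (hw : w ≠ 0) : p0 w = w / (Real.exp w - 1) := by
  rw [p0, dslope_of_ne _ hw, slope_def_field]
  simp

theorem p0_pos (w : ℝ) : 0 < p0 w := by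
  rcases lt_trichotomy w 0 with h | h | h
  · rw [p0_of_ne h.ne]
    exact div_pos_of_neg_of_neg h (by simpa using h)
  · rw [h, p0_zero]; exact one_pos
  · rw [p0_of_ne h.ne']
    exact div_pos h (by simpa using h)

theorem p1_eq (w : ℝ) : p1 w = p0 w * Real.exp w := by
  rcases eq_or_ne w 0 with h | h
  · simp [p1, h, p0_zero]
  · have := exp_sub_one_ne h
    rw [p1, p0_of_ne h]
    field_simp
    ring

theorem p1_pos (w : ℝ) : 0 < p1 w := by
  rw [p1_eq]; exact mul_pos (p0_pos w) (Real.exp_pos w)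

theorem p0_neg (w : ℝ) : p0 (-w) = p1 w := by
  rcases eq_or_ne w 0 with h | h
  · simp [p1, h, p0_zero]
  · have := exp_sub_one_ne h
    have h2 := exp_sub_one_ne (neg_ne_zero.2 h)
    rw [p1_eq, p0_of_ne h, p0_of_ne (neg_ne_zero.2 h)]
    have e : Real.exp (-w) * Real.exp w = 1 := by rw [← Real.exp_add]; simp
    rw [div_mul_eq_mul_div, div_eq_div_iff h2 this]
    linear_combination (-w) * e

theorem p1_neg (w : ℝ) : p1 (-w) = p0 w := by
  rw [p1, p0_neg, p1]; ring

theorem p1_sub_p0 (w : ℝ) : p1 w - p0 w = w := by rw [p1]; ring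

theorem p0_add_p1 (w : ℝ) : p0 w + p1 w = 2 * qf w := by rw [p1, qf]; ring

theorem qf_neg (w : ℝ) : qf (-w) = qf w := by rw [qf, p0_neg, p1, qf]; ring

theorem Ff_neg (w : ℝ) : Ff (-w) = Ff w := by rw [Ff, p0_neg, p1_neg, Ff]; ring

theorem qf_abs (w : ℝ) : qf |w| = qf w := by
  rcases abs_choice w with h | h <;> rw [h]
  exact qf_neg w

theorem Ff_abs (w : ℝ) : Ff |w| = Ff w := by
  rcases abs_choice w with h | h <;> rw [h]
  exact Ff_neg w

theorem qf_sq_sub (w : ℝ) : qf w ^ 2 - Ff w = w ^ 2 / 4 := by rw [qf, Ff, p1]; ring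

theorem Ff_pos (w : ℝ) : 0 < Ff w := mul_pos (p0_pos w) (p1_pos w)

theorem qf_zero : qf 0 = 1 := by simp [qf, p0_zero]

theorem Ff_zero : Ff 0 = 1 := by simp [Ff, p1, p0_zero]

theorem continuous_p0 : Continuous p0 := by
  unfold p0
  have h : Continuous (dslope Real.exp 0) := by
    rw [← continuousOn_univ, continuousOn_dslope Filter.univ_mem]
    exact ⟨Real.continuous_exp.continuousOn, Real.differentiable_exp 0⟩
  refine h.inv₀ fun w => ?_
  have := p0_pos w
  unfold p0 at this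
  intro h0
  rw [h0] at this
  simp at this

theorem continuous_qf : Continuous qf := by
  unfold qf; exact continuous_p0.add (by fun_prop)

theorem continuous_Ff : Continuous Ff := by
  unfold Ff p1; exact continuous_p0.mul (continuous_id.add continuous_p0)

theorem hasDerivAt_p0 {w : ℝ} (hw : w ≠ 0) : HasDerivAt p0 ((p0 w - Ff w) / w) w := by
  have h1 : HasDerivAt (fun x : ℝ => x / (Real.exp x - 1))
      ((1 * (Real.exp w - 1) - w * Real.exp w) / (Real.exp w - 1) ^ 2) w :=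
    (hasDerivAt_id w).div ((Real.hasDerivAt_exp w).sub_const 1) (exp_sub_one_ne hw)
  have h2 : p0 =ᶠ[𝓝 w] fun x : ℝ => x / (Real.exp x - 1) := by
    filter_upwards [isOpen_ne.mem_nhds hw] with x hx
    exact p0_of_ne hx
  refine (h1.congr_of_eventuallyEq h2).congr_deriv ?_
  have := exp_sub_one_ne hw
  rw [Ff, p1_eq, p0_of_ne hw]
  field_simp

theorem hasDerivAt_qf {w : ℝ} (hw : w ≠ 0) : HasDerivAt qf ((qf w - Ff w) / w) w := by
  have := (hasDerivAt_p0 hw).add ((hasDerivAt_id w).div_const 2)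
  refine this.congr_deriv ?_
  rw [qf]
  field_simp
  ring

theorem hasDerivAt_Ff {w : ℝ} (hw : w ≠ 0) :
    HasDerivAt Ff (-(2 * Ff w * (qf w - 1)) / w) w := by
  have h := hasDerivAt_p0 hw
  have := h.mul ((hasDerivAt_id w).add h)
  refine this.congr_deriv ?_
  simp only [Ff, qf, p1, id, Pi.add_apply]
  field_simp
  ring

/-- Positivity from the derivative. -/
theorem pos_of_deriv {f f' : ℝ → ℝ} (h : ∀ x, HasDerivAt f (f' x) x) (h0 : f 0 = 0)
    (h' : ∀ x, 0 < x → 0 < f' x) : ∀ x, 0 < x → 0 < f x := by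
  intro x hx
  have hm : StrictMonoOn f (Set.Ici 0) := by
    refine strictMonoOn_of_deriv_pos (convex_Ici 0)
      (fun y _ => (h y).continuousAt.continuousWithinAt) fun y hy => ?_
    rw [interior_Ici] at hy
    rw [(h y).deriv]
    exact h' y hy
  have := hm (Set.mem_Ici.2 le_rfl) (Set.mem_Ici.2 hx.le) hx
  rwa [h0] at this

theorem qf_gt_one {w : ℝ} (hw : 0 < w) : 1 < qf w := by
  have h2 : ∀ x : ℝ, 0 < x → 0 < 1 + x * Real.exp x - Real.exp x := by
    refine pos_of_deriv (f' := fun x => x * Real.exp x) (fun x => ?_) (by simp)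
      fun x hx => by positivity
    have := (((hasDerivAt_id x).mul (Real.hasDerivAt_exp x)).const_add 1).sub
      (Real.hasDerivAt_exp x)
    refine this.congr_deriv ?_
    simp only [id]
    ring
  have h1 : ∀ x : ℝ, 0 < x → 0 < x * (Real.exp x + 1) - 2 * (Real.exp x - 1) := by
    refine pos_of_deriv (f' := fun x => 1 + x * Real.exp x - Real.exp x) (fun x => ?_) (by simp) h2
    have := ((hasDerivAt_id x).mul ((Real.hasDerivAt_exp x).add_const 1)).sub
      (((Real.hasDerivAt_exp x).sub_const 1).const_mul 2)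
    refine this.congr_deriv ?_
    simp only [id]
    ring
  have h3 := h1 w hw
  have h4 : 0 < Real.exp w - 1 := by simpa using hw
  rw [qf, p0_of_ne hw.ne']
  have e : w / (Real.exp w - 1) + w / 2 - 1
      = (w * (Real.exp w + 1) - 2 * (Real.exp w - 1)) / (2 * (Real.exp w - 1)) := by
    field_simp
    ring
  have : 0 < w / (Real.exp w - 1) + w / 2 - 1 := by rw [e]; positivity
  linarith

theorem qf_add_Ff {w : ℝ} (hw : 0 < w) : 2 < qf w + Ff w := by
  have h4 : ∀ x : ℝ, 0 < x → 0 < x * Real.cosh x - Real.sinh x := by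
    refine pos_of_deriv (f' := fun x => x * Real.sinh x) (fun x => ?_) (by simp)
      fun x hx => mul_pos hx (Real.sinh_pos_iff.2 hx)
    have := ((hasDerivAt_id x).mul (Real.hasDerivAt_cosh x)).sub (Real.hasDerivAt_sinh x)
    refine this.congr_deriv ?_
    simp only [id]
    ring
  have h3 : ∀ x : ℝ, 0 < x → 0 < x * Real.sinh x + 2 - 2 * Real.cosh x := by
    refine pos_of_deriv (f' := fun x => x * Real.cosh x - Real.sinh x) (fun x => ?_) (by simp) h4
    have := (((hasDerivAt_id x).mul (Real.hasDerivAt_sinh x)).add_const 2).sub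
      ((Real.hasDerivAt_cosh x).const_mul 2)
    refine this.congr_deriv ?_
    simp only [id]
    ring
  have h2 : ∀ x : ℝ, 0 < x → 0 < x * Real.cosh x + 2 * x - 3 * Real.sinh x := by
    refine pos_of_deriv (f' := fun x => x * Real.sinh x + 2 - 2 * Real.cosh x)
      (fun x => ?_) (by simp) h3
    have := (((hasDerivAt_id x).mul (Real.hasDerivAt_cosh x)).add
      ((hasDerivAt_id x).const_mul 2)).sub ((Real.hasDerivAt_sinh x).const_mul 3)
    refine this.congr_deriv ?_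
    simp only [id]
    ring
  have h1 : ∀ x : ℝ, 0 < x → 0 < x * Real.sinh x + x ^ 2 - 4 * Real.cosh x + 4 := by
    refine pos_of_deriv (f' := fun x => x * Real.cosh x + 2 * x - 3 * Real.sinh x)
      (fun x => ?_) (by simp) h2
    have := ((((hasDerivAt_id x).mul (Real.hasDerivAt_sinh x)).add
      ((hasDerivAt_id x).pow 2)).sub ((Real.hasDerivAt_cosh x).const_mul 4)).add_const 4
    refine this.congr_deriv ?_
    simp only [id]
    ring
  have h := h1 w hw
  have hE : 0 < Real.exp w - 1 := by simpa using hw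
  have hexp := Real.exp_pos w
  have e : qf w + Ff w - 2 = Real.exp w * (w * Real.sinh w + w ^ 2 - 4 * Real.cosh w + 4)
      / (Real.exp w - 1) ^ 2 := by
    rw [qf, Ff, p1_eq, p0_of_ne hw.ne', Real.sinh_eq, Real.cosh_eq]
    have e1 : Real.exp (-w) = (Real.exp w)⁻¹ := Real.exp_neg w
    rw [e1]
    field_simp
    ring
  have : 0 < qf w + Ff w - 2 := by rw [e]; positivity
  linarith

theorem strictAntiOn_Ff : StrictAntiOn Ff (Set.Ici 0) := by
  refine strictAntiOn_of_deriv_neg (convex_Ici 0) continuous_Ff.continuousOn fun w hw => ?_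
  rw [interior_Ici] at hw
  have hw' : 0 < w := hw
  rw [(hasDerivAt_Ff hw'.ne').deriv]
  have h1 := Ff_pos w
  have h2 := sub_pos.2 (qf_gt_one hw')
  have : 0 < 2 * Ff w * (qf w - 1) / w := by positivity
  rw [neg_div]
  linarith

theorem Ff_le_one (w : ℝ) : Ff w ≤ 1 := by
  rw [← Ff_abs w, ← Ff_zero]
  exact strictAntiOn_Ff.antitoneOn (Set.mem_Ici.2 le_rfl) (Set.mem_Ici.2 (abs_nonneg w))
    (abs_nonneg w)

theorem qf_mul_Ff_le {w : ℝ} (hw : 0 ≤ w) : qf w * Ff w ≤ 1 := by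
  have ha : AntitoneOn (fun w => qf w * Ff w) (Set.Ici 0) := by
    refine antitoneOn_of_deriv_nonpos (convex_Ici 0)
      (continuous_qf.mul continuous_Ff).continuousOn (fun w hw => ?_) fun w hw => ?_
    · rw [interior_Ici] at hw
      have hw' : 0 < w := hw
      exact ((hasDerivAt_qf hw'.ne').mul
        (hasDerivAt_Ff hw'.ne')).differentiableAt.differentiableWithinAt
    · rw [interior_Ici] at hw
      have hw' : 0 < w := hw
      have hd := (hasDerivAt_qf hw'.ne').mul (hasDerivAt_Ff hw'.ne')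
      have e0 : deriv (fun w => qf w * Ff w) w
          = (qf w - Ff w) / w * Ff w + qf w * (-(2 * Ff w * (qf w - 1)) / w) := hd.deriv
      rw [e0]
      have e : (qf w - Ff w) / w * Ff w + qf w * (-(2 * Ff w * (qf w - 1)) / w)
          = -(Ff w * (2 * (qf w - 1) ^ 2 + (qf w + Ff w - 2)) / w) := by
        field_simp
        ring
      rw [e]
      have h1 := Ff_pos w
      have h2 := qf_add_Ff hw'
      have h3 : 0 < qf w + Ff w - 2 := by linarith
      have : 0 < Ff w * (2 * (qf w - 1) ^ 2 + (qf w + Ff w - 2)) / w := by positivity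
      linarith
  have := ha (Set.mem_Ici.2 le_rfl) (Set.mem_Ici.2 hw) hw
  simpa [qf_zero, Ff_zero] using this

theorem tendsto_Ff : Tendsto Ff atTop (𝓝 0) := by
  have h1 : Tendsto (fun w : ℝ => 4 * (w ^ 2 * Real.exp (-w))) atTop (𝓝 (4 * 0)) :=
    (Real.tendsto_pow_mul_exp_neg_atTop_nhds_zero 2).const_mul 4
  rw [mul_zero] at h1
  refine squeeze_zero' (Eventually.of_forall fun w => (Ff_pos w).le) ?_ h1
  filter_upwards [eventually_ge_atTop (1 : ℝ)] with w hw
  have hw0 : 0 < w := by linarith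
  have h2 : 2 ≤ Real.exp w := by
    have := Real.add_one_le_exp w
    linarith
  rw [Ff, p1_eq, p0_of_ne hw0.ne', Real.exp_neg]
  have h3 : 0 < Real.exp w - 1 := by linarith
  have h4 := Real.exp_pos w
  have e : w / (Real.exp w - 1) * (w / (Real.exp w - 1) * Real.exp w)
      = w ^ 2 * Real.exp w / (Real.exp w - 1) ^ 2 := by field_simp
  rw [e, div_le_iff₀ (by positivity)]
  have h5 : Real.exp w ^ 2 ≤ 4 * (Real.exp w - 1) ^ 2 := by nlinarith
  have e2 : 4 * (w ^ 2 * (Real.exp w)⁻¹) * (Real.exp w - 1) ^ 2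
      = w ^ 2 * (Real.exp w)⁻¹ * (4 * (Real.exp w - 1) ^ 2) := by ring
  rw [e2]
  have e3 : w ^ 2 * Real.exp w = w ^ 2 * (Real.exp w)⁻¹ * Real.exp w ^ 2 := by field_simp
  rw [e3]
  exact mul_le_mul_of_nonneg_left h5 (by positivity)

theorem exists_Ff {x : ℝ} (hx : x ∈ Set.Ioc (0 : ℝ) 1) : ∃ w, w ∈ Set.Ici (0 : ℝ) ∧ Ff w = x := by
  obtain ⟨W, hW⟩ := ((tendsto_Ff.eventually (gt_mem_nhds hx.1)).and
    (eventually_ge_atTop (0 : ℝ))).exists
  have hI := intermediate_value_Icc' hW.2 (continuous_Ff.continuousOn (s := Set.Icc 0 W))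
  obtain ⟨w, hw, e⟩ := hI ⟨hW.1.le, by rw [Ff_zero]; exact hx.2⟩
  exact ⟨w, hw.1, e⟩

/-- The inverse function of `Ff` on `[0, ∞)`. -/
def psi (x : ℝ) : ℝ := Function.invFunOn Ff (Set.Ici 0) x

theorem psi_mem {x : ℝ} (hx : x ∈ Set.Ioc (0 : ℝ) 1) : 0 ≤ psi x :=
  Function.invFunOn_mem (exists_Ff hx)

theorem Ff_psi {x : ℝ} (hx : x ∈ Set.Ioc (0 : ℝ) 1) : Ff (psi x) = x :=
  Function.invFunOn_eq (exists_Ff hx)

theorem psi_Ff {w : ℝ} (hw : 0 ≤ w) : psi (Ff w) = w :=
  strictAntiOn_Ff.injOn (psi_mem ⟨Ff_pos w, Ff_le_one w⟩) hw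
    (Ff_psi ⟨Ff_pos w, Ff_le_one w⟩)

theorem psi_one : psi 1 = 0 := by
  have := psi_Ff (w := 0) le_rfl
  rwa [Ff_zero] at this

theorem psi_pos {x : ℝ} (hx : x ∈ Set.Ioo (0 : ℝ) 1) : 0 < psi x := by
  refine lt_of_le_of_ne (psi_mem ⟨hx.1, hx.2.le⟩) fun h => ?_
  have := Ff_psi (x := x) ⟨hx.1, hx.2.le⟩
  rw [← h, Ff_zero] at this
  exact absurd this hx.2.ne'

theorem psi_strictAnti : StrictAntiOn psi (Set.Ioc 0 1) := by
  intro x hx y hy hxy
  by_contra h
  have h1 := strictAntiOn_Ff.antitoneOn (psi_mem hx) (psi_mem hy) (not_lt.1 h)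
  rw [Ff_psi hx, Ff_psi hy] at h1
  linarith

theorem continuousAt_psi {x : ℝ} (hx : x ∈ Set.Ioo (0 : ℝ) 1) : ContinuousAt psi x := by
  have hm : StrictMonoOn (fun y => -psi y) (Set.Ioo 0 1) := fun a ha b hb hab =>
    neg_lt_neg (psi_strictAnti ⟨ha.1, ha.2.le⟩ ⟨hb.1, hb.2.le⟩ hab)
  have himg : (fun y => -psi y) '' Set.Ioo 0 1 ∈ 𝓝 (-psi x) := by
    have : Set.Iio (0 : ℝ) ⊆ (fun y => -psi y) '' Set.Ioo 0 1 := by
      intro z hz
      have hz' : 0 < -z := by simpa using hz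
      refine ⟨Ff (-z), ⟨Ff_pos _, ?_⟩, ?_⟩
      · have := strictAntiOn_Ff (Set.mem_Ici.2 le_rfl) (Set.mem_Ici.2 hz'.le) hz'
        rwa [Ff_zero] at this
      · simp [psi_Ff hz'.le]
    exact Filter.mem_of_superset (Iio_mem_nhds (by simpa using psi_pos hx)) this
  have := hm.continuousAt_of_image_mem_nhds (Ioo_mem_nhds hx.1 hx.2) himg
  exact continuousAt_neg_iff.1 this

theorem continuousWithinAt_psi_one : ContinuousWithinAt psi (Set.Ioc 0 1) 1 := by
  rw [ContinuousWithinAt, psi_one, tendsto_order]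
  refine ⟨fun a ha => ?_, fun a ha => ?_⟩
  · filter_upwards [self_mem_nhdsWithin] with y hy
    exact ha.trans_le (psi_mem hy)
  · have h1 : Ff a < 1 := by
      have := strictAntiOn_Ff (Set.mem_Ici.2 le_rfl) (Set.mem_Ici.2 (le_of_lt ha)) ha
      rwa [Ff_zero] at this
    have h2 : ∀ᶠ y in 𝓝[Set.Ioc 0 1] (1 : ℝ), Ff a < y :=
      (lt_mem_nhds h1).filter_mono nhdsWithin_le_nhds
    filter_upwards [self_mem_nhdsWithin, h2] with y hy hy2
    by_contra h
    have h3 := strictAntiOn_Ff.antitoneOn (Set.mem_Ici.2 (le_of_lt ha)) (psi_mem hy) (not_lt.1 h)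
    rw [Ff_psi hy] at h3
    linarith

/-- `q` as a function of `F`. -/
def Qx (x : ℝ) : ℝ := qf (psi x)

theorem Qx_one : Qx 1 = 1 := by rw [Qx, psi_one, qf_zero]

theorem Qx_Ff (w : ℝ) : Qx (Ff w) = qf w := by
  rw [Qx, ← Ff_abs, psi_Ff (abs_nonneg w), qf_abs]

theorem Qx_cont : ContinuousOn Qx (Set.Ioc 0 1) := by
  intro x hx
  refine continuous_qf.continuousAt.comp_continuousWithinAt ?_
  rcases eq_or_lt_of_le hx.2 with h | h
  · rw [h]; exact continuousWithinAt_psi_one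
  · exact (continuousAt_psi ⟨hx.1, h⟩).continuousWithinAt

theorem Qx_gt {x : ℝ} (hx : x ∈ Set.Ioo (0 : ℝ) 1) : 1 < Qx x := qf_gt_one (psi_pos hx)

theorem hasDerivAt_Qx {x : ℝ} (hx : x ∈ Set.Ioo (0 : ℝ) 1) :
    HasDerivAt Qx (-((Qx x - x) / (2 * x * (Qx x - 1)))) x := by
  have hw := psi_pos hx
  have hF := Ff_psi (x := x) ⟨hx.1, hx.2.le⟩
  have hq := Qx_gt hx
  have hq' : qf (psi x) - 1 ≠ 0 := by rw [Qx] at hq; linarith
  have hx0 := hx.1.ne'
  have h1 := hasDerivAt_Ff hw.ne'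
  have hne : -(2 * Ff (psi x) * (qf (psi x) - 1)) / psi x ≠ 0 := by
    rw [hF]
    refine div_ne_zero (neg_ne_zero.2 ?_) hw.ne'
    positivity
  have h2 : HasDerivAt psi (-(2 * Ff (psi x) * (qf (psi x) - 1)) / psi x)⁻¹ x := by
    refine HasDerivAt.of_local_left_inverse (continuousAt_psi hx) h1 hne ?_
    filter_upwards [Ioo_mem_nhds hx.1 hx.2] with y hy
    exact Ff_psi ⟨hy.1, hy.2.le⟩
  have h3 := (hasDerivAt_qf hw.ne').comp x h2
  refine h3.congr_deriv ?_
  rw [hF, Qx]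
  field_simp

end

end Vale.Agent.P369.H255
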