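import Vale.Agent.P369.H255.OIW
import Vale.Agent.P369.FD.Stmts

/-!
P369, package FD-OI: the operator inequality in the matrix form of `FD/Stmts.lean`.
-/

namespace Vale.Agent.P369.H255

open Matrix
open scoped BigOperators Kronecker ComplexOrder

noncomputable section

theorem lm_eq (x y : ℝ) : Vale.Agent.P369.H712.lm x y = lm x y := by
  by_cases h : 0 < x ∧ 0 < y
  · have hn : ¬ (x ≤ 0 ∨ y ≤ 0) := by
      rintro (h1 | h1)
      · exact absurd h.1 (not_lt.2 h1)
      · exact absurd h.2 (not_lt.2 h1)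
    by_cases e : x = y
    · subst e
      rw [lm_self h.1, Vale.Agent.P369.H712.lm_self h.1]
    · rw [lm_eq_div h.1 h.2 e, Vale.Agent.P369.H712.lm_of_ne h.1 h.2 e]
  · have hn : x ≤ 0 ∨ y ≤ 0 := by
      by_contra hc
      push Not at hc
      exact h hc
    rw [Vale.Agent.P369.H712.lm_zero hn]
    simp [lm, h]

/-- Domination on all of a finite column type implies domination in finite pieces. -/
theorem domG_of {X Y : Type} [Fintype X] [Fintype Y] {T : Y → X → ℂ} {a : Y → ℝ} {A : X → ℝ}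
    (ha : ∀ y, 0 ≤ a y)
    (H : ∀ g : X → ℂ, ∑ y, a y * ‖∑ x, T y x * g x‖ ^ 2 ≤ ∑ x, A x * ‖g x‖ ^ 2) :
    DomG T a A := by
  classical
  intro s t h
  have e1 : ∀ y, ∑ x, T y x * (if x ∈ s then h x else 0) = ∑ x ∈ s, T y x * h x := by
    intro y
    rw [← Finset.sum_filter_add_sum_filter_not Finset.univ (fun x => x ∈ s)]
    have z : ∑ x ∈ Finset.univ.filter (fun x => ¬ x ∈ s), T y x * (if x ∈ s then h x else 0) = 0 :=
      Finset.sum_eq_zero fun x hx => by
        rw [if_neg (Finset.mem_filter.1 hx).2, mul_zero]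
    rw [z, add_zero]
    have : Finset.univ.filter (fun x => x ∈ s) = s := by ext x; simp
    rw [this]
    exact Finset.sum_congr rfl fun x hx => by rw [if_pos hx]
  have e2 : ∑ x, A x * ‖(if x ∈ s then h x else 0)‖ ^ 2 = ∑ x ∈ s, A x * ‖h x‖ ^ 2 := by
    rw [← Finset.sum_filter_add_sum_filter_not Finset.univ (fun x => x ∈ s)]
    have z : ∑ x ∈ Finset.univ.filter (fun x => ¬ x ∈ s),
        A x * ‖(if x ∈ s then h x else 0)‖ ^ 2 = 0 :=
      Finset.sum_eq_zero fun x hx => by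
        rw [if_neg (Finset.mem_filter.1 hx).2]; simp
    rw [z, add_zero]
    have : Finset.univ.filter (fun x => x ∈ s) = s := by ext x; simp
    rw [this]
    exact Finset.sum_congr rfl fun x hx => by rw [if_pos hx]
  have h1 := H fun x => if x ∈ s then h x else 0
  simp only [e1] at h1
  rw [e2] at h1
  refine le_trans (Finset.sum_le_sum_of_subset_of_nonneg (Finset.subset_univ t) ?_) h1
  intro y _ _
  exact mul_nonneg (ha y) (by positivity)

end

end Vale.Agent.P369.H255

namespace Vale.Agent.P369.FD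

open Matrix Vale.Agent.P369.H255
open scoped BigOperators Kronecker ComplexOrder

noncomputable section

theorem thm_OI : S_OI := by
  intro ι ι' κ _ _ _ _ _ _ A B C hA hB hC TA TB η₁ η₂ NA NB δ h₁ h₂ h12 hNA hNB hδ dL dR sA sB Z
  set UA : Matrix ι ι ℂ := (hA.isHermitian.eigenvectorUnitary : Matrix ι ι ℂ) with hUA
  set UB : Matrix ι' ι' ℂ := (hB.isHermitian.eigenvectorUnitary : Matrix ι' ι' ℂ) with hUB
  set VC : Matrix κ κ ℂ := (hC.isHermitian.eigenvectorUnitary : Matrix κ κ ℂ) with hVC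
  set p := hA.isHermitian.eigenvalues with hp
  set r := hB.isHermitian.eigenvalues with hr
  set q := hC.isHermitian.eigenvalues with hq
  have pp : ∀ k, 0 < p k := fun k => hA.eigenvalues_pos k
  have rp : ∀ k, 0 < r k := fun k => hB.eigenvalues_pos k
  have qp : ∀ k, 0 < q k := fun k => hC.eigenvalues_pos k
  have hV1 : VCᴴ * VC = 1 := by
    have := Unitary.coe_star_mul_self hC.isHermitian.eigenvectorUnitary
    simpa [hVC, star_eq_conjTranspose] using this
  have hV2 : VC * VCᴴ = 1 := mul_eq_one_comm.1 hV1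
  set M : ℝ := η₁ * NA + η₂ * NB with hM
  have hM0 : 0 < M := by positivity
  -- the matrix of the map
  set Zm : (κ × κ → ℂ) → Matrix κ κ ℂ := fun g => VC * (Matrix.of fun i j => g (i, j)) * VCᴴ
    with hZm
  set T : (ι × ι) ⊕ (ι' × ι') → κ × κ → ℂ := fun y x =>
    Sum.elim (fun y : ι × ι => (UAᴴ * TA (Zm (Pi.single x 1)) * UA) y.1 y.2)
      (fun y : ι' × ι' => (UBᴴ * TB (Zm (Pi.single x 1)) * UB) y.1 y.2) y with hT
  have hZlin : ∀ g : κ × κ → ℂ, Zm g = ∑ x, g x • Zm (Pi.single x 1) := by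
    intro g
    have e : (Matrix.of fun i j => g (i, j) : Matrix κ κ ℂ)
        = ∑ x : κ × κ, g x • (Matrix.of fun i j => (Pi.single x 1 : κ × κ → ℂ) (i, j)) := by
      ext i j
      rw [Matrix.sum_apply]
      simp only [Matrix.smul_apply, Matrix.of_apply, smul_eq_mul, Pi.single_apply, mul_ite,
        mul_one, mul_zero]
      simp
    simp only [hZm]
    rw [e, Matrix.mul_sum, Matrix.sum_mul]
    refine Finset.sum_congr rfl fun x _ => ?_
    rw [Matrix.mul_smul, Matrix.smul_mul]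
  have hTA : ∀ (g : κ × κ → ℂ) (y : ι × ι),
      ∑ x, T (Sum.inl y) x * g x = (UAᴴ * TA (Zm g) * UA) y.1 y.2 := by
    intro g y
    rw [hZlin g, map_sum, Matrix.mul_sum, Matrix.sum_mul, Matrix.sum_apply]
    refine Finset.sum_congr rfl fun x _ => ?_
    simp only [hT, Sum.elim_inl, map_smul, Matrix.mul_smul, Matrix.smul_mul, Matrix.smul_apply,
      smul_eq_mul]
    ring
  have hTB : ∀ (g : κ × κ → ℂ) (y : ι' × ι'),
      ∑ x, T (Sum.inr y) x * g x = (UBᴴ * TB (Zm g) * UB) y.1 y.2 := by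
    intro g y
    rw [hZlin g, map_sum, Matrix.mul_sum, Matrix.sum_mul, Matrix.sum_apply]
    refine Finset.sum_congr rfl fun x _ => ?_
    simp only [hT, Sum.elim_inr, map_smul, Matrix.mul_smul, Matrix.smul_mul, Matrix.smul_apply,
      smul_eq_mul]
    ring
  have hZC : ∀ g : κ × κ → ℂ, VCᴴ * Zm g * VC = Matrix.of fun i j => g (i, j) := by
    intro g
    simp only [hZm]
    calc VCᴴ * (VC * (Matrix.of fun i j => g (i, j)) * VCᴴ) * VC
        = (VCᴴ * VC) * (Matrix.of fun i j => g (i, j)) * (VCᴴ * VC) := by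
          simp only [Matrix.mul_assoc]
      _ = _ := by rw [hV1, Matrix.one_mul, Matrix.mul_one]
  -- the double sums
  have fA : ∀ (φ : ℝ → ℝ → ℝ) (g : κ × κ → ℂ), dform φ hA.isHermitian (TA (Zm g))
      = ∑ y : ι × ι, φ (p y.1) (p y.2) * ‖∑ x, T (Sum.inl y) x * g x‖ ^ 2 := by
    intro φ g
    rw [Fintype.sum_prod_type, dform]
    exact Finset.sum_congr rfl fun k _ => Finset.sum_congr rfl fun l _ => by rw [hTA]
  have fB : ∀ (φ : ℝ → ℝ → ℝ) (g : κ × κ → ℂ), dform φ hB.isHermitian (TB (Zm g))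
      = ∑ y : ι' × ι', φ (r y.1) (r y.2) * ‖∑ x, T (Sum.inr y) x * g x‖ ^ 2 := by
    intro φ g
    rw [Fintype.sum_prod_type, dform]
    exact Finset.sum_congr rfl fun k _ => Finset.sum_congr rfl fun l _ => by rw [hTB]
  have fC : ∀ (φ : ℝ → ℝ → ℝ) (g : κ × κ → ℂ), dform φ hC.isHermitian (Zm g)
      = ∑ x : κ × κ, φ (q x.1) (q x.2) * ‖g x‖ ^ 2 := by
    intro φ g
    rw [Fintype.sum_prod_type, dform]
    refine Finset.sum_congr rfl fun k _ => Finset.sum_congr rfl fun l _ => ?_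
    rw [← hVC, hZC]
    rfl
  set Ly : (ι × ι) ⊕ (ι' × ι') → ℝ := Sum.elim (fun y => p y.1) (fun y => r y.1) with hLy
  set Ry : (ι × ι) ⊕ (ι' × ι') → ℝ := Sum.elim (fun y => p y.2) (fun y => r y.2) with hRy
  set Ny : (ι × ι) ⊕ (ι' × ι') → ℝ := Sum.elim (fun _ => NA) (fun _ => NB) with hNy
  have Ly0 : ∀ y, 0 ≤ Ly y := by
    rintro (y | y)
    · exact (pp y.1).le
    · exact (rp y.1).le
  have Ry0 : ∀ y, 0 ≤ Ry y := by
    rintro (y | y)
    · exact (pp y.2).le
    · exact (rp y.2).le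
  have Ny0 : ∀ y, 0 < Ny y := by
    rintro (y | y)
    · exact hNA
    · exact hNB
  have bpos : ∀ {N : ℝ}, 0 < N → 0 < Real.log (1 + 1 / N) := fun {N} hN =>
    Real.log_pos (by have := one_div_pos.2 hN; linarith)
  have gL : DomG T Ly (fun x => q x.1) := by
    refine domG_of Ly0 fun g => ?_
    have := dL (Zm g)
    rw [fA, fB, fC] at this
    rw [Fintype.sum_sum_type]
    exact this
  have gR : DomG T Ry (fun x => q x.2) := by
    refine domG_of Ry0 fun g => ?_
    have := dR (Zm g)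
    rw [fA, fB, fC] at this
    rw [Fintype.sum_sum_type]
    exact this
  have bA := bpos hNA
  have bB := bpos hNB
  have bM := bpos hM0
  have gk : ∀ c : ℝ, 0 ≤ c → DomG T
      (fun y => Real.log (1 + 1 / Ny y) * (Ny y + c) * H255.lm (Ly y) (Ry y))
      (fun x => (1 + δ) * (Real.log (1 + 1 / M) * (M + c) * H255.lm (q x.1) (q x.2))) := by
    intro c hc
    refine domG_of (fun y => ?_) fun g => ?_
    · exact mul_nonneg (mul_nonneg (bpos (Ny0 y)).le (by have := Ny0 y; linarith))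
        (H255.lm_nonneg _ _)
    · have e1 := sA (Zm g)
      have e2 := sB (Zm g)
      rw [fA, fC] at e1
      rw [fB, fC] at e2
      simp only [lm_eq, bb] at e1 e2
      rw [Fintype.sum_sum_type]
      simp only [hLy, hRy, hNy, Sum.elim_inl, Sum.elim_inr]
      set S := ∑ x : κ × κ, H255.lm (q x.1) (q x.2) * ‖g x‖ ^ 2 with hS
      have e3 := mul_le_mul_of_nonneg_left e1
        (mul_nonneg bA.le (by linarith : (0 : ℝ) ≤ NA + c))
      have e4 := mul_le_mul_of_nonneg_left e2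
        (mul_nonneg bB.le (by linarith : (0 : ℝ) ≤ NB + c))
      have e5 : Real.log (1 + 1 / NA) * (NA + c)
            * ((1 + δ) * (η₁ * Real.log (1 + 1 / M) / Real.log (1 + 1 / NA)) * S)
          + Real.log (1 + 1 / NB) * (NB + c)
            * ((1 + δ) * (η₂ * Real.log (1 + 1 / M) / Real.log (1 + 1 / NB)) * S)
          = ∑ x : κ × κ, (1 + δ) * (Real.log (1 + 1 / M) * (M + c) * H255.lm (q x.1) (q x.2))
            * ‖g x‖ ^ 2 := by
        have e6 : ∑ x : κ × κ,
            (1 + δ) * (Real.log (1 + 1 / M) * (M + c) * H255.lm (q x.1) (q x.2)) * ‖g x‖ ^ 2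
            = (1 + δ) * (Real.log (1 + 1 / M) * (M + c)) * S := by
          rw [hS, Finset.mul_sum]
          exact Finset.sum_congr rfl fun x _ => by ring
        rw [e6]
        have e7 : M + c = η₁ * (NA + c) + η₂ * (NB + c) := by
          rw [hM]; linear_combination (-c) * h12
        rw [e7]
        have alg : ∀ lA lB lM : ℝ, lA ≠ 0 → lB ≠ 0 →
            lA * (NA + c) * ((1 + δ) * (η₁ * lM / lA) * S)
              + lB * (NB + c) * ((1 + δ) * (η₂ * lM / lB) * S)
              = (1 + δ) * (lM * (η₁ * (NA + c) + η₂ * (NB + c))) * S := by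
          intro lA lB lM hlA hlB
          field_simp
        exact alg _ _ _ bA.ne' bB.ne'
      rw [← e5]
      refine le_trans (le_of_eq ?_) (add_le_add e3 e4)
      rw [Finset.mul_sum, Finset.mul_sum]
      congr 1 <;> exact Finset.sum_congr rfl fun x _ => by ring
  have main := OI_N (T := T) (Ly := Ly) (Ry := Ry) (Lx := fun x => q x.1) (Rx := fun x => q x.2)
    (fun x => ⟨qp x.1, qp x.2⟩) (Ny := Ny) (Nx := fun _ => M) Ny0 (fun _ => hM0)
    (κ := 1 + δ) (by linarith) gL gR Ly0 Ry0 (by simpa using gk 0 le_rfl) (gk 1 zero_le_one)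
    Finset.univ Finset.univ (fun x => (VCᴴ * Z * VC) x.1 x.2)
  have hZ : Zm (fun x => (VCᴴ * Z * VC) x.1 x.2) = Z := by
    simp only [hZm]
    have : (Matrix.of fun i j => (VCᴴ * Z * VC) i j : Matrix κ κ ℂ) = VCᴴ * Z * VC := rfl
    rw [this]
    calc VC * (VCᴴ * Z * VC) * VCᴴ = (VC * VCᴴ) * Z * (VC * VCᴴ) := by
          simp only [Matrix.mul_assoc]
      _ = Z := by rw [hV2, Matrix.one_mul, Matrix.mul_one]
  have gA := fA (Wt NA) (fun x => (VCᴴ * Z * VC) x.1 x.2)
  have gB := fB (Wt NB) (fun x => (VCᴴ * Z * VC) x.1 x.2)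
  have gC1 := fC (Wt M) (fun x => (VCᴴ * Z * VC) x.1 x.2)
  have gC2 := fC (fun x y => Wt M x y ^ 2 / (x + y)) (fun x => (VCᴴ * Z * VC) x.1 x.2)
  rw [hZ] at gA gB gC1 gC2
  rw [gA, gB, gC1, gC2]
  rw [Fintype.sum_sum_type] at main
  simp only [hLy, hRy, hNy, Sum.elim_inl, Sum.elim_inr, add_sub_cancel_left] at main
  simp only [Wt, lm_eq]
  linarith [main]

end

end Vale.Agent.P369.FD
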